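import Vale.Agent.P224.R2.H433.Dens

/-!
Rational approximation of the coefficient functions from rational approximations of the moments.
-/

namespace Vale.Agent.P224.R2.H433

open MeasureTheory Set

/-- a rational list as a real list -/
def rl (A : List ℚ) : List ℝ := A.map fun a => (a : ℝ)

/-- termwise product -/
def zm : List ℚ → List ℚ → List ℚ
  | a :: A, b :: B => (a * b) :: zm A B
  | _, _ => []

/-- sum of lists -/
def za : List ℚ → List ℚ → List ℚ
  | a :: A, b :: B => (a + b) :: za A B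
  | [], B => B
  | A, [] => A

/-- multiple of a list -/
def sm (c : ℚ) : List ℚ → List ℚ
  | [] => []
  | a :: A => (c * a) :: sm c A

/-- the sum of the absolute values -/
def l1 : List ℚ → ℚ
  | [] => 0
  | a :: A => |a| + l1 A

lemma l1_nonneg : ∀ A : List ℚ, 0 ≤ l1 A
  | [] => le_rfl
  | a :: A => add_nonneg (abs_nonneg a) (l1_nonneg A)

lemma ev_rl_nil (s : ℝ) : ev (rl []) s = 0 := rfl
lemma ev_rl_cons (a : ℚ) (A : List ℚ) (s : ℝ) : ev (rl (a :: A)) s = a + s * ev (rl A) s := rfl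

lemma ev_za : ∀ (A B : List ℚ) (s : ℝ), ev (rl (za A B)) s = ev (rl A) s + ev (rl B) s
  | [], B, s => by simp [za, ev_rl_nil]
  | a :: A, [], s => by simp [za, ev_rl_nil]
  | a :: A, b :: B, s => by
    have := ev_za A B s
    simp only [za, ev_rl_cons, this]
    push_cast
    ring

lemma ev_sm (c : ℚ) : ∀ (A : List ℚ) (s : ℝ), ev (rl (sm c A)) s = c * ev (rl A) s
  | [], s => by simp [sm, ev_rl_nil]
  | a :: A, s => by
    have := ev_sm c A s
    simp only [sm, ev_rl_cons, this]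
    push_cast
    ring

lemma abs_ev_le : ∀ (A : List ℚ) {s : ℝ}, |s| ≤ 1 → |ev (rl A) s| ≤ l1 A
  | [], s, _ => by simp [ev_rl_nil, l1]
  | a :: A, s, hs => by
    have h := abs_ev_le A hs
    rw [ev_rl_cons, l1]
    push_cast
    have h1 : |s * ev (rl A) s| ≤ 1 * l1 A := by
      rw [abs_mul]
      exact mul_le_mul hs h (abs_nonneg _) zero_le_one
    rw [one_mul] at h1
    exact (abs_add_le _ _).trans (by linarith)

/-- the moments are approximated by the list `q` -/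
def MomOk (F : ℝ → ℝ) (q : List ℚ) (E : ℚ) : Prop :=
  ∀ n (_ : n < q.length), |(∫ T in (0 : ℝ)..1, T ^ n * F T) - (q.getD n 0 : ℚ)| ≤ E

/-- approximation of the moments of a list -/
theorem EE_apx {F : ℝ → ℝ} {q : List ℚ} {E : ℚ} (hq : MomOk F q E) :
    ∀ (L : List ℚ) (j : ℕ) {s : ℝ}, |s| ≤ 1 → j + L.length ≤ q.length →
      |EE F (rl L) j s - ev (rl (zm L (q.drop j))) s| ≤ E * l1 L
  | [], j, s, _, _ => by
    simp [EE, rl, zm, ev, l1]
  | a :: L, j, s, hs, hj => by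
    rw [List.length_cons] at hj
    have hj' : j < q.length := by omega
    have h := EE_apx hq L (j + 1) hs (by omega)
    have e1 : q.drop j = q.getD j 0 :: q.drop (j + 1) := by
      rw [List.drop_eq_getElem_cons hj', List.getD_eq_getElem _ _ hj']
    have e2 : EE F (rl (a :: L)) j s
        = a * (∫ T in (0 : ℝ)..1, T ^ j * F T) + s * EE F (rl L) (j + 1) s := rfl
    rw [e1, zm, ev_rl_cons, e2]
    have h2 := hq j hj'
    have h3 : |(a : ℝ) * ((∫ T in (0 : ℝ)..1, T ^ j * F T) - (q.getD j 0 : ℚ))| ≤ |(a : ℝ)| * E := by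
      rw [abs_mul]
      exact mul_le_mul_of_nonneg_left h2 (abs_nonneg _)
    have h4 : |s * (EE F (rl L) (j + 1) s - ev (rl (zm L (q.drop (j + 1)))) s)| ≤ 1 * (E * l1 L) := by
      rw [abs_mul]
      exact mul_le_mul hs h (abs_nonneg _) zero_le_one
    have e3 : (a : ℝ) * (∫ T in (0 : ℝ)..1, T ^ j * F T) + s * EE F (rl L) (j + 1) s
        - ((a * q.getD j 0 : ℚ) + s * ev (rl (zm L (q.drop (j + 1)))) s)
        = (a : ℝ) * ((∫ T in (0 : ℝ)..1, T ^ j * F T) - (q.getD j 0 : ℚ))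
          + s * (EE F (rl L) (j + 1) s - ev (rl (zm L (q.drop (j + 1)))) s) := by
      push_cast
      ring
    rw [e3, l1]
    push_cast
    refine (abs_add_le _ _).trans ?_
    have e4 : (E : ℝ) * (|(a : ℝ)| + l1 L) = |(a : ℝ)| * E + 1 * (E * l1 L) := by ring
    rw [e4]
    exact add_le_add h3 h4

/-- a function is approximated by a list with an error -/
def Apx (g : ℝ → ℝ) (A : List ℚ) (η : ℚ) : Prop := ∀ s : ℝ, |s| ≤ 1 → |g s - ev (rl A) s| ≤ η

lemma Apx.add {g h : ℝ → ℝ} {A B : List ℚ} {η θ : ℚ} (hg : Apx g A η) (hh : Apx h B θ) :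
    Apx (fun s => g s + h s) (za A B) (η + θ) := by
  intro s hs
  have h1 := hg s hs
  have h2 := hh s hs
  rw [ev_za]
  push_cast
  have e : g s + h s - (ev (rl A) s + ev (rl B) s)
      = (g s - ev (rl A) s) + (h s - ev (rl B) s) := by ring
  rw [e]
  exact (abs_add_le _ _).trans (add_le_add h1 h2)

lemma Apx.cmul {g : ℝ → ℝ} {A : List ℚ} {η : ℚ} (hg : Apx g A η) (c : ℚ) :
    Apx (fun s => c * g s) (sm c A) (|c| * η) := by
  intro s hs
  have h1 := hg s hs
  rw [ev_sm, ← mul_sub, abs_mul]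
  push_cast
  exact mul_le_mul_of_nonneg_left h1 (abs_nonneg _)

lemma apx_EE {F : ℝ → ℝ} {q : List ℚ} {E : ℚ} (hq : MomOk F q E) (L : List ℚ) (j : ℕ)
    (hj : j + L.length ≤ q.length) :
    Apx (EE F (rl L) j) (zm L (q.drop j)) (E * l1 L) := by
  intro s hs
  have := EE_apx hq L j hs hj
  push_cast
  exact this

/-- change of the list -/
lemma Apx.change {g : ℝ → ℝ} {A B : List ℚ} {η θ : ℚ} (hg : Apx g A η)
    (h : η + l1 (za A (sm (-1) B)) ≤ θ) : Apx g B θ := by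
  intro s hs
  have h1 := hg s hs
  have h2 := abs_ev_le (za A (sm (-1) B)) hs
  rw [ev_za, ev_sm] at h2
  push_cast at h2
  have h3 : (η : ℝ) + l1 (za A (sm (-1) B)) ≤ θ := by exact_mod_cast h
  have e : g s - ev (rl B) s = (g s - ev (rl A) s) + (ev (rl A) s + -1 * ev (rl B) s) := by ring
  rw [e]
  exact (abs_add_le _ _).trans (by linarith)

/-- change of the density under a change of the coefficients -/
theorem SS_apx {a b n0 n1 n2 n3 n4 n5 a' b' n0' n1' n2' n3' n4' n5' s x y c η : ℝ}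
    (hη : 0 ≤ η) (hs : |s| ≤ 1) (hx : |x| ≤ 1) (hy : |y| ≤ 1) (hc : |c| ≤ 1)
    (ha : |a - a'| ≤ η) (hb : |b - b'| ≤ η)
    (h0 : |n0 - n0'| ≤ η) (h1 : |n1 - n1'| ≤ η) (h2 : |n2 - n2'| ≤ η) (h3 : |n3 - n3'| ≤ η)
    (h4 : |n4 - n4'| ≤ η) (h5 : |n5 - n5'| ≤ η) :
    SS a' b' n0' n1' n2' n3' n4' n5' s x y c
      - η * (6 * (c - s - (x + y) / 2) ^ 2 + 12 * (y - x) ^ 2)
      ≤ SS a b n0 n1 n2 n3 n4 n5 s x y c := by
  have ab : ∀ {z w : ℝ} {M : ℝ}, |z| ≤ η → |w| ≤ M → -(η * M) ≤ z * w := by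
    intro z w M hz hw
    have h : |z * w| ≤ η * M := by
      rw [abs_mul]
      exact mul_le_mul hz hw (abs_nonneg _) hη
    exact (abs_le.1 h).1
  have e : SS a b n0 n1 n2 n3 n4 n5 s x y c - SS a' b' n0' n1' n2' n3' n4' n5' s x y c
      = (a - a') * (((c - s - x) ^ 2 + (c - s - y) ^ 2) / 2)
        + (b - b') * (x * (c - s - x) ^ 2 + y * (c - s - y) ^ 2)
        + (n0' - n0) * (y - x) ^ 2 + (n1' - n1) * ((y - x) ^ 2 * (x + y))
        + (n2' - n2) * ((y - x) ^ 2 * (x * y)) + (n3' - n3) * ((y - x) ^ 2 * (x * y * (x + y)))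
        + (n4' - n4) * ((y - x) ^ 2 * c) + (n5' - n5) * ((y - x) ^ 2 * (c * (x + y))) := by
    unfold SS
    ring
  have hd : 0 ≤ (y - x) ^ 2 := sq_nonneg _
  have hxy : |x + y| ≤ 2 := (abs_add_le _ _).trans (by linarith)
  have hxy2 : |x * y| ≤ 1 := by
    rw [abs_mul]
    nlinarith [abs_nonneg x, abs_nonneg y]
  have q1 : |((c - s - x) ^ 2 + (c - s - y) ^ 2) / 2|
      ≤ (c - s - (x + y) / 2) ^ 2 + (y - x) ^ 2 / 4 := by
    rw [abs_of_nonneg (by positivity)]
    exact le_of_eq (by ring)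
  have q2 : |x * (c - s - x) ^ 2 + y * (c - s - y) ^ 2|
      ≤ 2 * ((c - s - (x + y) / 2) ^ 2 + (y - x) ^ 2 / 4) := by
    refine (abs_add_le _ _).trans ?_
    rw [abs_mul, abs_mul, abs_of_nonneg (sq_nonneg (c - s - x)),
      abs_of_nonneg (sq_nonneg (c - s - y))]
    have m1 := mul_le_mul_of_nonneg_right hx (sq_nonneg (c - s - x))
    have m2 := mul_le_mul_of_nonneg_right hy (sq_nonneg (c - s - y))
    have m3 : 1 * (c - s - x) ^ 2 + 1 * (c - s - y) ^ 2
        = 2 * ((c - s - (x + y) / 2) ^ 2 + (y - x) ^ 2 / 4) := by ring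
    linarith
  have r0 : |(y - x) ^ 2| ≤ (y - x) ^ 2 := (abs_of_nonneg hd).le
  have r1 : |(y - x) ^ 2 * (x + y)| ≤ (y - x) ^ 2 * 2 := by
    rw [abs_mul, abs_of_nonneg hd]
    exact mul_le_mul_of_nonneg_left hxy hd
  have r2 : |(y - x) ^ 2 * (x * y)| ≤ (y - x) ^ 2 * 1 := by
    rw [abs_mul, abs_of_nonneg hd]
    exact mul_le_mul_of_nonneg_left hxy2 hd
  have r3 : |(y - x) ^ 2 * (x * y * (x + y))| ≤ (y - x) ^ 2 * (1 * 2) := by
    rw [abs_mul, abs_of_nonneg hd, abs_mul (x * y)]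
    exact mul_le_mul_of_nonneg_left (mul_le_mul hxy2 hxy (abs_nonneg _) zero_le_one) hd
  have r4 : |(y - x) ^ 2 * c| ≤ (y - x) ^ 2 * 1 := by
    rw [abs_mul, abs_of_nonneg hd]
    exact mul_le_mul_of_nonneg_left hc hd
  have r5 : |(y - x) ^ 2 * (c * (x + y))| ≤ (y - x) ^ 2 * (1 * 2) := by
    rw [abs_mul, abs_of_nonneg hd, abs_mul c]
    exact mul_le_mul_of_nonneg_left (mul_le_mul hc hxy (abs_nonneg _) zero_le_one) hd
  have t1 := ab ha q1
  have t2 := ab hb q2
  have t3 := ab (by rw [abs_sub_comm]; exact h0) r0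
  have t4 := ab (by rw [abs_sub_comm]; exact h1) r1
  have t5 := ab (by rw [abs_sub_comm]; exact h2) r2
  have t6 := ab (by rw [abs_sub_comm]; exact h3) r3
  have t7 := ab (by rw [abs_sub_comm]; exact h4) r4
  have t8 := ab (by rw [abs_sub_comm]; exact h5) r5
  have hv := mul_nonneg hη (sq_nonneg (c - s - (x + y) / 2))
  have hd' := mul_nonneg hη hd
  generalize SS a b n0 n1 n2 n3 n4 n5 s x y c = S1 at e ⊢
  generalize SS a' b' n0' n1' n2' n3' n4' n5' s x y c = S2 at e ⊢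
  generalize (a - a') * (((c - s - x) ^ 2 + (c - s - y) ^ 2) / 2) = u1 at e t1
  generalize (b - b') * (x * (c - s - x) ^ 2 + y * (c - s - y) ^ 2) = u2 at e t2
  generalize (n1' - n1) * ((y - x) ^ 2 * (x + y)) = u4 at e t4
  generalize (n2' - n2) * ((y - x) ^ 2 * (x * y)) = u5 at e t5
  generalize (n3' - n3) * ((y - x) ^ 2 * (x * y * (x + y))) = u6 at e t6
  generalize (n4' - n4) * ((y - x) ^ 2 * c) = u7 at e t7
  generalize (n5' - n5) * ((y - x) ^ 2 * (c * (x + y))) = u8 at e t8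
  generalize (n0' - n0) * (y - x) ^ 2 = u3 at e t3
  generalize (c - s - (x + y) / 2) ^ 2 = v at *
  generalize (y - x) ^ 2 = w at *
  have e2 : η * (6 * v + 12 * w) = 6 * (η * v) + 12 * (η * w) := by ring
  have f1 : η * (v + w / 4) = η * v + (η * w) / 4 := by ring
  have f2 : η * (2 * (v + w / 4)) = 2 * (η * v) + (η * w) / 2 := by ring
  have f3 : η * (w * 2) = 2 * (η * w) := by ring
  have f4 : η * (w * 1) = η * w := by ring
  have f5 : η * (w * (1 * 2)) = 2 * (η * w) := by ring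
  rw [e2]
  rw [f1] at t1
  rw [f2] at t2
  rw [f3] at t4
  rw [f4] at t5 t7
  rw [f5] at t6 t8
  linarith

end Vale.Agent.P224.R2.H433
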