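import Vale.Agent.P224.R2.H433.L57

/-!
The eight coefficient lists of the static density in dimension three.
-/

namespace Vale.Agent.P224.R2.H433

open MeasureTheory Set Vale.Agent.P224.R2.H925

/-- decimal moments of the flow -/
def mE : List ℚ := [36819358106 / 10 ^ 12, 10956278548 / 10 ^ 12, 4557607374 / 10 ^ 12, 2282438709 / 10 ^ 12, 1287519536 / 10 ^ 12, 789349876 / 10 ^ 12, 514731877 / 10 ^ 12, 352033031 / 10 ^ 12, 250072150 / 10 ^ 12, 183228985 / 10 ^ 12, 137756114 / 10 ^ 12, 105848791 / 10 ^ 12, 82863786 / 10 ^ 12]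
def mP : List ℚ := [-42538047730 / 10 ^ 12, -10139001357 / 10 ^ 12, -3644389611 / 10 ^ 12, -1614114805 / 10 ^ 12, -816562176 / 10 ^ 12, -453700384 / 10 ^ 12, -270432333 / 10 ^ 12, -170277594 / 10 ^ 12, -112047115 / 10 ^ 12, -76453150 / 10 ^ 12, -53776229 / 10 ^ 12, -38816404 / 10 ^ 12, -28649373 / 10 ^ 12]
def mR : List ℚ := [-24610714160 / 10 ^ 12, -4429551549 / 10 ^ 12, -1336676118 / 10 ^ 12, -524942215 / 10 ^ 12, -243187837 / 10 ^ 12, -126324534 / 10 ^ 12, -71396094 / 10 ^ 12, -43057135 / 10 ^ 12, -27339675 / 10 ^ 12, -18103052 / 10 ^ 12, -12411510 / 10 ^ 12, -8762887 / 10 ^ 12, -6344126 / 10 ^ 12]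
def mW : List ℚ := [537268699839 / 10 ^ 12, 281835963249 / 10 ^ 12, 180341372593 / 10 ^ 12, 128073175267 / 10 ^ 12, 97007097358 / 10 ^ 12, 76771360981 / 10 ^ 12, 62721655096 / 10 ^ 12, 52496490446 / 10 ^ 12, 44780202757 / 10 ^ 12, 38787322833 / 10 ^ 12, 34022778330 / 10 ^ 12, 30160576536 / 10 ^ 12, 26978176035 / 10 ^ 12]
def mr : List ℚ := [47553520026 / 10 ^ 12, 8349282895 / 10 ^ 12, 2683540480 / 10 ^ 12, 1148457448 / 10 ^ 12, 582169011 / 10 ^ 12, 330198726 / 10 ^ 12, 202915690 / 10 ^ 12, 132426942 / 10 ^ 12, 90567795 / 10 ^ 12, 64307501 / 10 ^ 12, 47086501 / 10 ^ 12, 35372771 / 10 ^ 12, 27156814 / 10 ^ 12]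

/-- decimal coefficients of the static density -/
def Ca : List ℚ := [1104580743 / 10 ^ 10, 1314753426 / 10 ^ 10, 1296202773 / 10 ^ 10, 1457337081 / 10 ^ 10, 1971869293 / 10 ^ 10, 1118702907 / 10 ^ 10, -949676425 / 10 ^ 10, -766264464 / 10 ^ 10]
def Cb : List ℚ := [-425380477 / 10 ^ 10, -506950068 / 10 ^ 10, -527712743 / 10 ^ 10, -577263521 / 10 ^ 10, -708892990 / 10 ^ 10, -608211963 / 10 ^ 10, -196215193 / 10 ^ 10]
def C0 : List ℚ := [-20414188094 / 10 ^ 10, -32666056840 / 10 ^ 10, -27611573746 / 10 ^ 10, 13217810431 / 10 ^ 10, 55550902258 / 10 ^ 10, 27735310383 / 10 ^ 10, -35838441843 / 10 ^ 10, -31851488197 / 10 ^ 10, 8023812699 / 10 ^ 10, 9799769856 / 10 ^ 10]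
def C1 : List ℚ := [2057122418 / 10 ^ 10, 2047891831 / 10 ^ 10, 1592468758 / 10 ^ 10, 652137856 / 10 ^ 10, -215525087 / 10 ^ 10, -407737958 / 10 ^ 10, -132203377 / 10 ^ 10, 38890102 / 10 ^ 10, 23136258 / 10 ^ 10]
def C2 : List ℚ := [-2283930113 / 10 ^ 10, -5996506709 / 10 ^ 10, -8614667184 / 10 ^ 10, -7013301982 / 10 ^ 10, -1588679076 / 10 ^ 10, 2488022522 / 10 ^ 10, 2277844600 / 10 ^ 10, 600863284 / 10 ^ 10]
def C3 : List ℚ := [784687005 / 10 ^ 10, 2008441535 / 10 ^ 10, 3047960942 / 10 ^ 10, 3112528398 / 10 ^ 10, 2070984260 / 10 ^ 10, 804547853 / 10 ^ 10, 137465794 / 10 ^ 10]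
def C4 : List ℚ := [288976164 / 10 ^ 10, 353791529 / 10 ^ 10, 471462564 / 10 ^ 10, 202657681 / 10 ^ 10, -325017538 / 10 ^ 10, -443639501 / 10 ^ 10, -74047434 / 10 ^ 10, 143747502 / 10 ^ 10, 64084971 / 10 ^ 10]
def C5 : List ℚ := [154081953 / 10 ^ 10, 98691398 / 10 ^ 10, -28507937 / 10 ^ 10, -87765580 / 10 ^ 10, -27199455 / 10 ^ 10, 48376358 / 10 ^ 10, 46784040 / 10 ^ 10, 12581945 / 10 ^ 10]

lemma MomOk.change {F : ℝ → ℝ} {q q' : List ℚ} {E E' : ℚ} (h : MomOk F q E)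
    (hl : q'.length ≤ q.length) (hd : ∀ n < q'.length, |q.getD n 0 - q'.getD n 0| ≤ E' - E) :
    MomOk F q' E' := by
  intro n hn
  have h1 := h n (by omega)
  have h2 : |((q.getD n 0 : ℚ) : ℝ) - (q'.getD n 0 : ℚ)| ≤ (E' : ℝ) - E := by
    exact_mod_cast hd n hn
  have := abs_sub_le (∫ T in (0 : ℝ)..1, T ^ n * F T) ((q.getD n 0 : ℚ) : ℝ) (q'.getD n 0 : ℚ)
  linarith

/-- the moments of the flow -/
structure MomAll (u : St) : Prop where
  e : MomOk u.e mE (2 / 10 ^ 10)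
  ε : MomOk u.ε mP (2 / 10 ^ 10)
  ρ : MomOk u.ρ mR (2 / 10 ^ 10)
  w : MomOk (fun T => T * u.y T) mW (2 / 10 ^ 10)
  r : MomOk u.r mr (2 / 10 ^ 10)

/-- the common error -/
def ηq : ℚ := 1 / 10 ^ 5

section

variable {u : St}

theorem apx_a (h : MomAll u) : Apx (ga u L57) Ca ηq := by
  have h1 := (apx_EE h.e A0q 0 (by decide)).cmul 3
  exact h1.change (by decide +kernel)

theorem apx_b (h : MomAll u) : Apx (gb u L57) Cb ηq := by
  have h1 := apx_EE h.ε Q5q 0 (by decide)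
  exact h1.change (by decide +kernel)

theorem apx_0 (h : MomAll u) : Apx (g0 u L57) C0 ηq := by
  have h1 := ((((apx_EE h.w B3q 0 (by decide)).cmul (-3)).add
    ((apx_EE h.r B3q 0 (by decide)).cmul (-9))).add
    ((apx_EE h.r B2q 2 (by decide)).cmul (-24))).add
    ((apx_EE h.ρ B2q 1 (by decide)).cmul (-4))
  have h2 : Apx (g0 u L57) _ _ := fun s hs => by
    have h3 := h1 s hs
    have e : g0 u L57 s = ((-3 : ℚ) : ℝ) * EE (fun T => T * u.y T) (rl B3q) 0 s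
      + ((-9 : ℚ) : ℝ) * EE u.r (rl B3q) 0 s + ((-24 : ℚ) : ℝ) * EE u.r (rl B2q) 2 s
      + ((-4 : ℚ) : ℝ) * EE u.ρ (rl B2q) 1 s := by
      unfold g0 L57
      push_cast
      ring
    rw [e]
    exact h3
  exact h2.change (by decide +kernel)

theorem apx_1 (h : MomAll u) : Apx (g1 u L57) C1 ηq := by
  have h1 := (((apx_EE h.ρ B2q 0 (by decide)).cmul (-6)).add
    ((apx_EE h.ε B2q 0 (by decide)).cmul (-1))).add
    ((apx_EE h.ρ B1q 2 (by decide)).cmul (-15))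
  have h2 : Apx (g1 u L57) _ _ := fun s hs => by
    have h3 := h1 s hs
    have e : g1 u L57 s = ((-6 : ℚ) : ℝ) * EE u.ρ (rl B2q) 0 s
      + ((-1 : ℚ) : ℝ) * EE u.ε (rl B2q) 0 s + ((-15 : ℚ) : ℝ) * EE u.ρ (rl B1q) 2 s := by
      unfold g1 L57
      push_cast
      ring
    rw [e]
    exact h3
  exact h2.change (by decide +kernel)

theorem apx_2 (h : MomAll u) : Apx (g2 u L57) C2 ηq := by
  have h1 := ((apx_EE h.r B1q 2 (by decide)).cmul (-120)).add
    ((apx_EE h.ρ B1q 1 (by decide)).cmul (-20))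
  have h2 : Apx (g2 u L57) _ _ := fun s hs => by
    have h3 := h1 s hs
    have e : g2 u L57 s = ((-120 : ℚ) : ℝ) * EE u.r (rl B1q) 2 s
      + ((-20 : ℚ) : ℝ) * EE u.ρ (rl B1q) 1 s := by
      unfold g2 L57
      push_cast
      ring
    rw [e]
    exact h3
  exact h2.change (by decide +kernel)

theorem apx_3 (h : MomAll u) : Apx (g3 u L57) C3 ηq := by
  have h1 := (apx_EE h.ρ Q7q 2 (by decide)).cmul (-60)
  have h2 : Apx (g3 u L57) _ _ := fun s hs => by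
    have h3 := h1 s hs
    have e : g3 u L57 s = ((-60 : ℚ) : ℝ) * EE u.ρ (rl Q7q) 2 s := by
      unfold g3 L57
      push_cast
      ring
    rw [e]
    exact h3
  exact h2.change (by decide +kernel)

theorem apx_4 (h : MomAll u) : Apx (g4 u L57) C4 ηq := by
  have h1 := (((apx_EE h.r B2q 1 (by decide)).cmul (-24)).add
    ((apx_EE h.ρ B2q 0 (by decide)).cmul (-4))).add
    ((apx_EE h.e B2q 1 (by decide)).cmul 12)
  have h2 : Apx (g4 u L57) _ _ := fun s hs => by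
    have h3 := h1 s hs
    have e : g4 u L57 s = ((-24 : ℚ) : ℝ) * EE u.r (rl B2q) 1 s
      + ((-4 : ℚ) : ℝ) * EE u.ρ (rl B2q) 0 s + ((12 : ℚ) : ℝ) * EE u.e (rl B2q) 1 s := by
      unfold g4 L57
      push_cast
      ring
    rw [e]
    exact h3
  exact h2.change (by decide +kernel)

theorem apx_5 (h : MomAll u) : Apx (g5 u L57) C5 ηq := by
  have h1 := ((apx_EE h.ρ B1q 1 (by decide)).cmul (-15)).add
    ((apx_EE h.ε B1q 1 (by decide)).cmul 5)
  have h2 : Apx (g5 u L57) _ _ := fun s hs => by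
    have h3 := h1 s hs
    have e : g5 u L57 s = ((-15 : ℚ) : ℝ) * EE u.ρ (rl B1q) 1 s
      + ((5 : ℚ) : ℝ) * EE u.ε (rl B1q) 1 s := by
      unfold g5 L57
      push_cast
      ring
    rw [e]
    exact h3
  exact h2.change (by decide +kernel)

/-- the density with the decimal coefficients -/
noncomputable def SR (s x y c : ℝ) : ℝ :=
  SS (ev (rl Ca) s) (ev (rl Cb) s) (ev (rl C0) s) (ev (rl C1) s) (ev (rl C2) s) (ev (rl C3) s)
    (ev (rl C4) s) (ev (rl C5) s) s x y c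

/-- the integrated density is bounded below by the decimal one -/
theorem SF_ge (h : MomAll u) {s x y c : ℝ} (hs : |s| ≤ 1) (hx : |x| ≤ 1) (hy : |y| ≤ 1)
    (hc : |c| ≤ 1) :
    SR s x y c - 1 / 10 ^ 5 * (6 * (c - s - (x + y) / 2) ^ 2 + 12 * (y - x) ^ 2)
      ≤ SF u L57 s x y c := by
  have hη : ((ηq : ℚ) : ℝ) = 1 / 10 ^ 5 := by
    unfold ηq
    push_cast
    ring
  have ha := apx_a h s hs
  have hb := apx_b h s hs
  have h0 := apx_0 h s hs
  have h1 := apx_1 h s hs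
  have h2 := apx_2 h s hs
  have h3 := apx_3 h s hs
  have h4 := apx_4 h s hs
  have h5 := apx_5 h s hs
  rw [hη] at ha hb h0 h1 h2 h3 h4 h5
  exact SS_apx (by positivity) hs hx hy hc ha hb h0 h1 h2 h3 h4 h5

end

end Vale.Agent.P224.R2.H433
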