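import Vale.Agent.P224.R2.H433.Asm
import Vale.Agent.P224.R2.H433.Num
import Vale.Agent.P224.R2.H166.Cert
import Vale.Agent.P224.R2.H797.Small
import Vale.Agent.P224.R2.H176.T0.Alg4

/-!
Dimension three: the sharp bound and its case of equality from the data of the flow.
-/

namespace Vale.Agent.P224.R2.H433

open MeasureTheory Set Filter Function Real Module Vale.Agent.P224 Vale.Agent.P224.FV
  Vale.Agent.P224.UE Vale.Agent.P224.PO Vale.Agent.P224.R2.H178 Vale.Agent.P224.R2.H925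
  Vale.Agent.P224.R2.H176
open Vale.Agent.P224.SM2 hiding ker
open scoped RealInnerProductSpace Topology ContDiff Manifold ENNReal

set_option linter.unusedSectionVars false

lemma Ca_eq : Ca = H166.qL H166.alL := by decide +kernel
lemma Cb_eq : Cb = H166.qL H166.beL := by decide +kernel
lemma C0_eq : C0 = H166.qL H166.b0L := by decide +kernel
lemma C1_eq : C1 = H166.qL H166.b1L := by decide +kernel
lemma C2_eq : C2 = H166.qL H166.b2L := by decide +kernel
lemma C3_eq : C3 = H166.qL H166.b3L := by decide +kernel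
lemma C4_eq : C4 = H166.qL H166.b4L := by decide +kernel
lemma C5_eq : C5 = H166.qL H166.b5L := by decide +kernel

/-- the certificate for the flow -/
theorem cert_L57 {u : St} (hu : MomAll u) {W1 W2 : ℝ} (h1 : W1 ≤ 10585 / 10 ^ 5)
    (h2 : W2 ≤ 13424 / 10 ^ 5) :
    Cert u L57 (H166.tL H166.fL) (H166.tL H166.gL) (H166.tL H166.hL) (H166.muQ : ℝ)
      (H166.k1Q : ℝ) (H166.k2Q : ℝ) W1 W2 (1 / 2000) := by
  intro s x y c d1 d2 d3 d4 hg
  have hs : |s| ≤ 1 := (sq_le_one_iff_abs_le_one s).1 (by nlinarith [sq_nonneg x])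
  have hx : |x| ≤ 1 := (sq_le_one_iff_abs_le_one x).1 (by nlinarith [sq_nonneg s])
  have hy : |y| ≤ 1 := (sq_le_one_iff_abs_le_one y).1 (by nlinarith [sq_nonneg s])
  have hc : |c| ≤ 1 := (sq_le_one_iff_abs_le_one c).1 (by nlinarith [sq_nonneg x])
  have e1 := SF_ge hu hs hx hy hc
  have e2 := H166.cert3 (s := s) (x := x) (y := y) (c := c) d2 d3 hg
  unfold SR at e1
  rw [Ca_eq, Cb_eq, C0_eq, C1_eq, C2_eq, C3_eq, C4_eq, C5_eq] at e1
  unfold qf
  have q1 := mul_le_mul_of_nonneg_right h1 (sq_nonneg (c - s - (x + y) / 2))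
  have q2 := mul_le_mul_of_nonneg_right h2 (sq_nonneg (y - x))
  have p1 := sq_nonneg (c - s - (x + y) / 2)
  have p2 := sq_nonneg (y - x)
  set P := (c - s - (x + y) / 2) ^ 2 with hP
  set Q := (y - x) ^ 2 with hQ
  have e3 : (0 : ℝ) ≤ P * (4 / 10 ^ 4) + Q * (18 / 10 ^ 4) := by positivity
  norm_num at e2 e1 q1 q2 e3 ⊢
  linarith

/-- the analytic inputs of dimension three -/
structure Inp3 : Prop where
  mom : MomAll Flow3.u3
  fint : FInt Flow3.u3
  x1 : 1 / 10 ≤ -Flow3.ρ 0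
  x2 : -Flow3.ρ 0 ≤ 129 / 1250
  r1 : 0 ≤ Flow3.r0
  r2 : Flow3.r0 ≤ 31 / 100
  minor : ∃ δ : ℝ → ℝ, IntervalIntegrable δ volume 0 1 ∧ ∫ T in (0 : ℝ)..1, δ T ≤ 1 / 2000 ∧
    Minor Flow3.u3 L57 (√2 / 2) δ

section

variable {V W M : Type*} [NormedAddCommGroup V] [InnerProductSpace ℝ V] [FiniteDimensional ℝ V]
  [NormedAddCommGroup W] [InnerProductSpace ℝ W] [FiniteDimensional ℝ W]
  [TopologicalSpace M] [ChartedSpace V M]
  [MeasurableSpace V] [BorelSpace V] [MeasurableSpace M] [BorelSpace M]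
  [IsManifold 𝓘(ℝ, V) ∞ M] [CompactSpace M] [T2Space M] [ConnectedSpace M]
  [MeasurableSpace W] [BorelSpace W]

/-- the weight of the first square -/
noncomputable def w1 : ℝ := 601 / 586 * -Flow3.ρ 0
/-- the weight of the second square -/
noncomputable def w2 : ℝ := 24391 / 18752 * -Flow3.ρ 0
/-- the weight of the stable resource -/
noncomputable def a2 : ℝ := (7 / 4 * w1 + 4 * w2) / Fc
/-- the parameter of the mean normal -/
noncomputable def γ3 : ℝ := (3 * Flow3.r0 + (H166.muQ : ℝ)) / Fc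

/-- the law of the certificate -/
theorem law3 (hI : Inp3) (hV : finrank ℝ V = 3) (hW : finrank ℝ W = finrank ℝ V + 2) {F : M → W}
    (hF : SphImm V F) (hmin : ∀ x n, IsUnitNormal V F x n → meanCurv V F x n = 0)
    (hinj : Injective F) :
    LawTP V 3 F (8 / 3 * √(1 / 3)) γ3 (RF3 (√2 / 2) (Flow3.ρ 0) w1 w2) := by
  have hd : (√(2 : ℝ) / 2) ^ 2 = 1 / 2 := by
    rw [div_pow, Real.sq_sqrt (by norm_num)]
    norm_num
  obtain ⟨δ, hδ, hδ0, hM⟩ := hI.minor
  have hw1 : w1 ≤ 10585 / 10 ^ 5 := by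
    unfold w1
    have := hI.x2
    linarith
  have hw2 : w2 ≤ 13424 / 10 ^ 5 := by
    unfold w2
    have := hI.x2
    linarith
  exact law_cert hV hW hF hmin hinj hd (Flow3.sys3 hd) (Flow3.lim0_3 hd) Flow3.lim1_3 hI.fint
    L57_ok hδ hδ0 hM (k1 := (H166.k1Q : ℝ)) (k2 := (H166.k2Q : ℝ))
    (by unfold H166.k1Q; norm_num) (by unfold H166.k2Q; norm_num) (cert_L57 hI.mom hw1 hw2)

lemma a2_lo (hI : Inp3) : 69 / 100 / Fc ≤ a2 := by
  unfold a2
  refine div_le_div_of_nonneg_right ?_ Fc_pos.le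
  unfold w1 w2
  have := hI.x1
  linarith

/-- the stable resource -/
theorem stab3 (hI : Inp3) (hV : finrank ℝ V = 3) (hW : finrank ℝ W = finrank ℝ V + 2) {F : M → W}
    (hF : SphImm V F) (hmin : ∀ x n, IsUnitNormal V F x n → meanCurv V F x n = 0)
    (hng : ¬ ∃ a : W, a ≠ 0 ∧ ∀ x, ⟪F x, a⟫ = 0) :
    StabTN V 3 3 (√2 / 2) F (RF3 (√2 / 2) (Flow3.ρ 0) w1 w2) (a2 / 2 * (1 / 16))
      (a2 / 2 * (1 / 4500)) := by
  have hFc := Fc_pos
  have ha2 : 0 < a2 := lt_of_lt_of_le (by positivity) (a2_lo hI)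
  unfold RF3
  refine stabTN_of_res hV hW hF hmin hng (al := 1 / 20) (be := 1 / 45) (a2 := a2)
    (by norm_num) ha2 res4 ?_ ?_ ?_ ?_ le_rfl le_rfl
  · unfold a2
    ring
  · unfold a2 w1 w2
    field_simp
    ring
  · unfold a2 w1 w2
    field_simp
    ring
  · refine le_of_eq ?_
    unfold a2 w1 w2
    field_simp
    ring

/-- **Dimension three**: the sharp bound and its case of equality. -/
theorem three_inp (hI : Inp3) (hV : finrank ℝ V = 3) (hW : finrank ℝ W = finrank ℝ V + 2)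
    {F : M → W} (hF : SphImm V F) (hmin : ∀ x n, IsUnitNormal V F x n → meanCurv V F x n = 0)
    (hng : ¬ ∃ a : W, a ≠ 0 ∧ ∀ x, ⟪F x, a⟫ = 0) :
    ENNReal.ofReal (leastClifford 3) ≤ volM V F Set.univ ∧
      (volM V F Set.univ = ENNReal.ofReal (leastClifford 3) ↔
        Function.Injective F ∧ ∃ U : Submodule ℝ W, finrank ℝ U = 3 / 2 + 1 ∧
          Set.range F = {z | ‖U.starProjection z‖ ^ 2 = ((3 / 2 : ℕ) : ℝ) / ((3 : ℕ) : ℝ) ∧
            ‖z - U.starProjection z‖ ^ 2 = ((3 - 3 / 2 : ℕ) : ℝ) / ((3 : ℕ) : ℝ)}) := by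
  have hfin : IsFiniteMeasure (volM V F) := isFiniteMeasure_volM hF
  have hS := sphereVol_pos' 3
  by_cases hinj : Injective F
  · have hFc := Fc_pos
    have hmu : (H166.muQ : ℝ) ≤ 66472 / 10 ^ 6 := by
      unfold H166.muQ
      norm_num
    have hmu0 : (0 : ℝ) < (H166.muQ : ℝ) := by
      unfold H166.muQ
      norm_num
    have hg0 : 0 < γ3 := div_pos (by have := hI.r1; linarith) hFc
    have hg1 : γ3 ≤ (9965 / 10000) / Fc :=
      div_le_div_of_nonneg_right (by have := hI.r2; linarith) hFc.le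
    have ha := a2_lo hI
    have ha2 : 0 < a2 := lt_of_lt_of_le (by positivity) ha
    set z := (1 : ℝ) / Fc with hz
    have hz0 : 0 < z := by positivity
    have e1 : (9965 / 10000 : ℝ) / Fc = 9965 / 10000 * z := by rw [hz]; ring
    have e2 : (69 / 100 : ℝ) / Fc = 69 / 100 * z := by rw [hz]; ring
    rw [e1] at hg1
    rw [e2] at ha
    refine three_abs hV hW hF hmin hng hg0 (law3 hI hV hW hF hmin hinj)
      (u0 := (21 / 5000) ^ 2) (H797.smallNN3 hV hW hF hmin hng) (kT := a2 / 2 * (1 / 16))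
      (by positivity) (stab3 hI hV hW hF hmin hng) ?_ ?_
    · linarith
    · have e3 : (29 / 10 * γ3) ^ 2 * (21 / 5000) ^ 2 = (29 / 10 * γ3 * (21 / 5000)) ^ 2 := by ring
      rw [e3]
      exact pow_le_pow_left₀ (by positivity) (by linarith) 2
  · have h2 := TwoSide.two_le (by omega) hW hF hmin hinj
    have h3 : leastClifford 3 < (volM V F).real univ := by
      rw [least3_eq]
      rw [hV] at h2
      have := mul_lt_mul_of_pos_right a3_lt_two hS
      linarith
    have h4 : ENNReal.ofReal (leastClifford 3) < volM V F Set.univ := by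
      rw [← ENNReal.ofReal_toReal (measure_ne_top (volM V F) univ)]
      refine (ENNReal.ofReal_lt_ofReal_iff (lt_trans ?_ h3)).2 h3
      rw [least3_eq]
      positivity
    exact ⟨h4.le, fun h => absurd h h4.ne', fun h => absurd h.1 hinj⟩

end

end Vale.Agent.P224.R2.H433
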