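import Vale.Agent.P224.SM2.Odd
import Vale.Agent.P224.R2.H820.Geo
import Vale.Agent.P224.Bdl.B1

/-!
The gap between the sharp ratio of the even law and the Clifford ratio in odd dimension.
-/

namespace Vale.Agent.P224.R2.H433

open Filter Real Vale.Agent.P224 Vale.Agent.P224.SM2 Vale.Agent.P224.R2.H820
open scoped Topology

/-- the comparison function -/
noncomputable def Ug (m : ℝ) : ℝ := 1 / (4 * m) - 7 / (24 * m ^ 3) + 1 / (2 * m ^ 5)

lemma neg_log_ge {u : ℝ} (h0 : 0 ≤ u) (h1 : u < 1) : u + u ^ 2 / 2 - u ^ 3 / (1 - u) ≤ -log (1 - u) := by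
  have h := Real.abs_log_sub_add_sum_range_le (x := u) (by rwa [abs_of_nonneg h0]) 2
  rw [abs_of_nonneg h0, Finset.sum_range_succ, Finset.sum_range_one] at h
  have h2 := (abs_le.1 h).2
  norm_num at h2
  linarith

lemma Ug_step {m : ℝ} (hm : 4 ≤ m) :
    Ug m - Ug (m + 4) ≤ -log (1 - 1 / (m + 2) ^ 2) := by
  have h1 : (0 : ℝ) < (m + 2) ^ 2 := by positivity
  have hu1 : 1 / (m + 2) ^ 2 < 1 := by
    rw [div_lt_one h1]
    nlinarith
  refine le_trans ?_ (neg_log_ge (by positivity) hu1)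
  obtain ⟨t, ht, rfl⟩ : ∃ t : ℝ, 0 ≤ t ∧ m = t + 4 := ⟨m - 4, by linarith, by ring⟩
  have hq : 0 < (t + 4 + 2) ^ 2 - 1 := by nlinarith
  have e1 : (1 / (t + 4 + 2) ^ 2) ^ 3 / (1 - 1 / (t + 4 + 2) ^ 2)
      = 1 / ((t + 4 + 2) ^ 4 * ((t + 4 + 2) ^ 2 - 1)) := by
    have : (t + 4 + 2) ^ 2 ≠ 0 := by positivity
    field_simp
  rw [e1]
  unfold Ug
  rw [← sub_nonneg]
  have e2 : 1 / (t + 4 + 2) ^ 2 + (1 / (t + 4 + 2) ^ 2) ^ 2 / 2
      - 1 / ((t + 4 + 2) ^ 4 * ((t + 4 + 2) ^ 2 - 1))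
      - (1 / (4 * (t + 4)) - 7 / (24 * (t + 4) ^ 3) + 1 / (2 * (t + 4) ^ 5)
        - (1 / (4 * (t + 4 + 4)) - 7 / (24 * (t + 4 + 4) ^ 3) + 1 / (2 * (t + 4 + 4) ^ 5)))
      = (59 / 3 * t ^ 10 + 1180 * t ^ 9 + 31494 * t ^ 8 + 492192 * t ^ 7 + 4984504 * t ^ 6
        + 34144992 * t ^ 5 + 479998048 / 3 * t ^ 4 + 505372928 * t ^ 3 + 1026728960 * t ^ 2
        + 1206269952 * t + 618160128)
        / ((t + 4) ^ 5 * (t + 8) ^ 5 * ((t + 6) ^ 4 * ((t + 4 + 2) ^ 2 - 1))) := by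
    have h3 : (t + 4 + 2) ^ 2 - 1 ≠ 0 := hq.ne'
    have h4 : t + 4 ≠ 0 := by positivity
    have h5 : t + 8 ≠ 0 := by positivity
    have h6 : t + 6 ≠ 0 := by positivity
    have e3 : t + 4 + 4 = t + 8 := by ring
    have e4 : t + 4 + 2 = t + 6 := by ring
    rw [e3, e4]
    rw [e4] at h3
    field_simp
    ring
  rw [e2]
  positivity

lemma Rr_pos {a : ℝ} (ha : 2 ≤ a) : 0 < Rr a := by
  have h2 : (0 : ℝ) < √2 := by positivity
  exact lt_of_lt_of_le (by positivity) (Rr_ge ha)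

lemma log_Rr_nonneg {a : ℝ} (ha : 2 ≤ a) : 0 ≤ log (Rr a / √2) := by
  refine log_nonneg ?_
  have h2 : (0 : ℝ) < √2 := by positivity
  rw [one_le_div h2]
  refine le_trans ?_ (Rr_ge ha)
  have h3 : (1 : ℝ) ≤ (8 * a + 8) / (8 * a + 7) := by
    rw [one_le_div (by positivity)]
    linarith
  nlinarith

lemma log_Rr_step {a : ℝ} (ha : 2 ≤ a) :
    log (Rr a / √2) = log (Rr (a + 2) / √2) - log (1 - 1 / (2 * a + 2) ^ 2) := by
  have h2 : (0 : ℝ) < √2 := by positivity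
  have hR := Rr_pos (a := a + 2) (by linarith)
  have h3 : (0 : ℝ) < 1 - 1 / (2 * a + 2) ^ 2 := by
    rw [sub_pos, div_lt_one (by positivity)]
    nlinarith
  rw [← log_div (by positivity) h3.ne']
  congr 1
  rw [Rr_step ha]
  have h4 : (a + 1) ^ 2 / ((a + 3 / 2) * (a + 1 / 2)) = 1 / (1 - 1 / (2 * a + 2) ^ 2) := by
    have h5 : (2 * a + 2) ^ 2 - 1 ≠ 0 := by nlinarith
    have h6 : (2 * a + 2) ^ 2 ≠ 0 := by positivity
    have h7 : (a + 3 / 2) * (a + 1 / 2) ≠ 0 := by positivity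
    have h8 : 1 - 1 / (2 * a + 2) ^ 2 = ((2 * a + 2) ^ 2 - 1) / (2 * a + 2) ^ 2 := by
      field_simp
    rw [h8, one_div_div, div_eq_div_iff h7 h5]
    ring
  rw [h4]
  ring

lemma Ug_le {m : ℝ} (hm : 4 ≤ m) : Ug m ≤ 1 / m := by
  unfold Ug
  have h0 : (0 : ℝ) < m := by linarith
  have e : 1 / m - (1 / (4 * m) - 7 / (24 * m ^ 3) + 1 / (2 * m ^ 5))
      = (18 * m ^ 4 + 7 * m ^ 2 - 12) / (24 * m ^ 5) := by
    field_simp
    ring
  have h1 : 0 ≤ (18 * m ^ 4 + 7 * m ^ 2 - 12) / (24 * m ^ 5) := by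
    refine div_nonneg ?_ (by positivity)
    have h16 : 16 ≤ m ^ 2 := by nlinarith
    nlinarith [pow_pos h0 4]
  linarith

theorem Ug_le_log {a : ℝ} (ha : 2 ≤ a) : Ug (2 * a) ≤ log (Rr a / √2) := by
  by_contra hcon
  have hcon' := not_le.1 hcon
  set ε := Ug (2 * a) - log (Rr a / √2) with hε
  have hε0 : 0 < ε := by linarith
  have hind : ∀ n : ℕ, ε ≤ Ug (2 * (a + 2 * n)) - log (Rr (a + 2 * n) / √2) := by
    intro n
    induction n with
    | zero => simp [hε]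
    | succ n ih =>
      have hn : (0 : ℝ) ≤ n := Nat.cast_nonneg n
      have h1 := log_Rr_step (a := a + 2 * n) (by linarith)
      have h2 := Ug_step (m := 2 * (a + 2 * n)) (by linarith)
      have e1 : a + 2 * ((n + 1 : ℕ) : ℝ) = a + 2 * n + 2 := by
        push_cast
        ring
      have e2 : 2 * (a + 2 * n + 2) = 2 * (a + 2 * n) + 4 := by ring
      rw [e1, e2]
      linarith
  obtain ⟨n, hn⟩ := exists_nat_gt (1 / ε)
  have h1 := hind n
  have hn0 : (0 : ℝ) ≤ n := Nat.cast_nonneg n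
  have h2 := log_Rr_nonneg (a := a + 2 * n) (by linarith)
  have h3 := Ug_le (m := 2 * (a + 2 * n)) (by linarith)
  have h4 : 1 / (2 * (a + 2 * n)) < ε := by
    rw [div_lt_iff₀ (by positivity)]
    rw [div_lt_iff₀ hε0] at hn
    nlinarith
  linarith

/-- an upper bound of the logarithms -/
lemma log_bd {x : ℝ} (h0 : 0 < x) (h1 : x ≤ 1 / 17) :
    (1 - x) * log (1 - x) + (1 + x) * log (1 + x) ≤ x ^ 2 + x ^ 4 / 6 + x ^ 6 / 5 := by
  have hx : |x| < 1 := by
    rw [abs_of_pos h0]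
    linarith
  have a1 := Real.abs_log_sub_add_sum_range_le (x := x) hx 6
  have a2 := Real.abs_log_sub_add_sum_range_le (x := -x) (by rwa [abs_neg]) 6
  rw [abs_neg] at a2
  rw [abs_of_pos h0] at a1 a2
  simp only [Finset.sum_range_succ, Finset.sum_range_zero, Nat.cast_zero, Nat.cast_one,
    Nat.cast_ofNat] at a1 a2
  have b1 := (abs_le.1 a1).2
  have b2 := (abs_le.1 a2).2
  have h3 : x ^ (6 + 1) / (1 - x) ≤ 1 / 16 * x ^ 6 := by
    rw [div_le_iff₀ (by linarith)]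
    have : 0 < x ^ 6 := by positivity
    nlinarith
  have e0 : 1 - -x = 1 + x := by ring
  rw [e0] at b2
  have c1 := mul_le_mul_of_nonneg_left (b1.trans h3) (by linarith : 0 ≤ 1 - x)
  have c2 := mul_le_mul_of_nonneg_left (b2.trans h3) (by linarith : 0 ≤ 1 + x)
  have d1 : 0 ≤ x ^ 6 := by positivity
  norm_num at c1 c2
  nlinarith

/-- the logarithm of the Clifford ratio in odd dimension -/
lemma log_oddRatio {h : ℕ} (hh : 1 ≤ h) {m : ℝ} (hm : m = 2 * h + 1) :
    log (oddRatio h / √2) = m / 4 * ((1 - 1 / m) * log (1 - 1 / m) + (1 + 1 / m) * log (1 + 1 / m)) := by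
  have hh' : (1 : ℝ) ≤ h := by exact_mod_cast hh
  have hm0 : 0 < m := by linarith
  unfold oddRatio
  rw [← hm]
  have e1 : (h : ℝ) / m = (1 - 1 / m) / 2 := by
    rw [div_eq_div_iff hm0.ne' two_ne_zero]
    field_simp
    linarith
  have e2 : ((h : ℝ) + 1) / m = (1 + 1 / m) / 2 := by
    rw [div_eq_div_iff hm0.ne' two_ne_zero]
    field_simp
    linarith
  have p1 : 0 < 1 - 1 / m := by
    rw [sub_pos, div_lt_one hm0]
    linarith
  have p2 : 0 < 1 + 1 / m := by positivity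
  rw [e1, e2]
  have h2 : (0 : ℝ) < √2 := by positivity
  rw [log_div (by positivity) h2.ne', log_mul (by positivity) (by positivity),
    log_mul (by positivity) (by positivity), log_rpow (by positivity), log_rpow (by positivity),
    log_pow, log_div p1.ne' two_ne_zero, log_div p2.ne' two_ne_zero, log_sqrt (by norm_num)]
  have e3 : (h : ℝ) = (m - 1) / 2 := by linarith
  rw [e3]
  push_cast
  rw [e3]
  field_simp
  ring

/-- **the gap** -/
theorem gap {h : ℕ} (hh : 8 ≤ h) :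
    (1 - 1 / (3 * (2 * h + 1 : ℝ) ^ 3)) * oddRatio h ≤ 2 * lamM (2 * h + 1) := by
  have hh' : (8 : ℝ) ≤ h := by exact_mod_cast hh
  set m : ℝ := 2 * h + 1 with hm
  have hm17 : 17 ≤ m := by linarith
  have hm0 : 0 < m := by linarith
  have h2 : (0 : ℝ) < √2 := by positivity
  -- the sharp ratio of the even law
  have e1 : 2 * lamM (2 * h + 1) = Rr (m / 2) := by
    unfold lamM Rr
    push_cast
    rw [← hm]
    have h3 : m - 2 ≠ 0 := by linarith
    have h4 : m / 2 - 1 ≠ 0 := by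
      have : m / 2 - 1 = (m - 2) / 2 := by ring
      rw [this]
      exact div_ne_zero h3 two_ne_zero
    have h5 : (2 * (m / 2) - 1) / (m / 2 - 1) = 2 * ((m - 1) / (m - 2)) := by
      rw [div_eq_iff h4]
      field_simp
    rw [h5]
    ring
  rw [e1]
  have hR := Rr_pos (a := m / 2) (by linarith)
  have hl := Ug_le_log (a := m / 2) (by linarith)
  have e2 : 2 * (m / 2) = m := by ring
  rw [e2] at hl
  have hO : 0 < oddRatio h := by
    unfold oddRatio
    have : (0 : ℝ) < h := by linarith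
    positivity
  have hg0 : 0 < 1 - 1 / (3 * m ^ 3) := by
    rw [sub_pos, div_lt_one (by positivity)]
    nlinarith [pow_pos hm0 2]
  have key : log ((1 - 1 / (3 * m ^ 3)) * oddRatio h / √2) ≤ log (Rr (m / 2) / √2) := by
    refine le_trans ?_ hl
    have e3 : (1 - 1 / (3 * m ^ 3)) * oddRatio h / √2 = (1 - 1 / (3 * m ^ 3)) * (oddRatio h / √2) := by
      ring
    rw [e3, log_mul hg0.ne' (by positivity), log_oddRatio (by omega) hm]
    have h3 : log (1 - 1 / (3 * m ^ 3)) ≤ -(1 / (3 * m ^ 3)) := by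
      have := log_le_sub_one_of_pos hg0
      linarith
    set x := 1 / m with hx
    have hx0 : 0 < x := by positivity
    have hx1 : x ≤ 1 / 17 := one_div_le_one_div_of_le (by norm_num) hm17
    have h4 := log_bd hx0 hx1
    have h5 := mul_le_mul_of_nonneg_left h4 (by positivity : 0 ≤ m / 4)
    have hmx : m = 1 / x := by rw [hx, one_div_one_div]
    have e4 : m / 4 * (x ^ 2 + x ^ 4 / 6 + x ^ 6 / 5) = x / 4 + x ^ 3 / 24 + x ^ 5 / 20 := by
      rw [hmx]
      field_simp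
      ring
    have e5 : 1 / (3 * m ^ 3) = x ^ 3 / 3 := by
      rw [hmx]
      field_simp
    have e6 : Ug m = x / 4 - 7 / 24 * x ^ 3 + x ^ 5 / 2 := by
      unfold Ug
      rw [hmx]
      field_simp
    rw [e4] at h5
    rw [e5] at h3 ⊢
    rw [e6]
    have : 0 < x ^ 5 := by positivity
    linarith
  rw [log_le_log_iff (by positivity) (by positivity)] at key
  rwa [div_le_div_iff_of_pos_right h2] at key

end Vale.Agent.P224.R2.H433
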