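import Vale.Agent.P224.R2.H433.S2Dev
import Vale.Agent.P224.R2.H728.S2Near
import Vale.Agent.P224.R2.H728.S2Rel
import Vale.Agent.P224.R2.H444.F400
import Vale.Agent.P224.R2.H742.SO9

/-!
**The sharp volume bound in all dimensions from 400 on.**
-/

namespace Vale.Agent.P224.R2.H433

open MeasureTheory Set Filter Function Real Module Vale.Agent.P224 Vale.Agent.P224.FV
open Vale.Agent.P224.SM2 Vale.Agent.P224.R2.H820 Vale.Agent.P224.R2.H728 Vale.Agent.P224.R2.H582
open Vale.Agent.P224.R2.H176 (NearData)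
open Vale.Agent.P224.R2.H577 (Sharp)
open scoped Topology RealInnerProductSpace ContDiff Manifold ENNReal

set_option linter.unusedSectionVars false

universe u v w

section

variable {V : Type u} {W : Type v} {M : Type w}
  [NormedAddCommGroup V] [InnerProductSpace ℝ V] [FiniteDimensional ℝ V]
  [MeasurableSpace V] [BorelSpace V]
  [NormedAddCommGroup W] [InnerProductSpace ℝ W] [FiniteDimensional ℝ W]
  [MeasurableSpace W] [BorelSpace W]
  [TopologicalSpace M] [T2Space M] [CompactSpace M] [ConnectedSpace M]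
  [ChartedSpace V M] [IsManifold 𝓘(ℝ, V) ∞ M] [MeasurableSpace M] [BorelSpace M]

/-- **The sharp volume bound in all dimensions from 400 on.** -/
theorem big (h400 : 400 ≤ finrank ℝ V) (hW : finrank ℝ W = finrank ℝ V + 2)
    {F : M → W} (hF : SphImm V F) (hmin : ∀ x n, IsUnitNormal V F x n → meanCurv V F x n = 0)
    (hng : ¬ ∃ a : W, a ≠ 0 ∧ ∀ x, ⟪F x, a⟫ = 0) :
    ENNReal.ofReal (leastClifford (finrank ℝ V)) ≤ volM V F univ := by
  have hrel := H728.relU_400 (ν := H545.par.nuf) h400 hW hF hmin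
  have hnu : (H545.par.nuf : ℝ) = 21 / 5000 := by
    rw [H728.par_nuf]
    push_cast
    rfl
  refine dim_S2' h400 hW hF hmin hng H728.par_tls ?_ hrel ?_ ?_ ?_
  · rw [H728.par_nuf]
    norm_num
  · exact H444.far_400_le hnu.ge h400 hW hF hmin hng
  · exact fun N b j hd => H728.nearS_400 h400 hW hF hmin hrel hd
  · exact fun _ => H742.boxLaw_400 h400 hW hF hmin

/-- the even dimensions from 400 on -/
theorem big_even (h400 : 400 ≤ finrank ℝ V) (_ : Even (finrank ℝ V))
    (hW : finrank ℝ W = finrank ℝ V + 2)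
    {F : M → W} (hF : SphImm V F) (hmin : ∀ x n, IsUnitNormal V F x n → meanCurv V F x n = 0)
    (hng : ¬ ∃ a : W, a ≠ 0 ∧ ∀ x, ⟪F x, a⟫ = 0) :
    ENNReal.ofReal (leastClifford (finrank ℝ V)) ≤ volM V F univ :=
  big h400 hW hF hmin hng

/-- the odd dimensions from 400 on -/
theorem big_odd (h400 : 400 ≤ finrank ℝ V) (_ : Odd (finrank ℝ V))
    (hW : finrank ℝ W = finrank ℝ V + 2)
    {F : M → W} (hF : SphImm V F) (hmin : ∀ x n, IsUnitNormal V F x n → meanCurv V F x n = 0)
    (hng : ¬ ∃ a : W, a ≠ 0 ∧ ∀ x, ⟪F x, a⟫ = 0) :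
    ENNReal.ofReal (leastClifford (finrank ℝ V)) ≤ volM V F univ :=
  big h400 hW hF hmin hng

end

/-- **All dimensions from 400 on.** -/
theorem sharp_big (m : ℕ) (hm : 400 ≤ m) : Sharp.{u, v, w} m := by
  intro V W M _ _ _ _ _ _ _ _ _ _ _ _ _ _ _ _ _ _ hV hW F hF hmin hng
  exact big (hV ▸ hm) hW hF hmin hng

end Vale.Agent.P224.R2.H433
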