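import Vale.Agent.P224.R2.H433.RowP
import Vale.Agent.P224.SO.Rc5b

/-!
Positive kernels of degree three and the inequality of the Gram determinant.
-/

namespace Vale.Agent.P224.R2.H433

open MeasureTheory Set Filter Function Real Module Vale.Agent.P224 Vale.Agent.P224.FV
  Vale.Agent.P224.SM2 Vale.Agent.P224.R2.H925 Vale.Agent.P224.SO
open scoped RealInnerProductSpace Topology ContDiff Manifold

set_option linter.unusedSectionVars false

lemma sum3 {ι : Type*} [Fintype ι] (A B C : ι → ℝ) :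
    (∑ i, A i) * (∑ j, B j) * (∑ k, C k) = ∑ i, ∑ j, ∑ k, A i * B j * C k := by
  rw [Finset.sum_mul_sum, Finset.sum_mul]
  refine Finset.sum_congr rfl fun i _ => ?_
  rw [Finset.sum_mul]
  refine Finset.sum_congr rfl fun j _ => ?_
  rw [Finset.mul_sum]

section

variable {X : Type*} [MeasurableSpace X] {E : Type*} [NormedAddCommGroup E]
  [InnerProductSpace ℝ E] [FiniteDimensional ℝ E] [MeasurableSpace E] [BorelSpace E]
  {μ : Measure X} [IsFiniteMeasure μ]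

lemma integrable_mul3 {f g h : X → E} (hf : UF f) (hg : UF g) (hh : UF h) (u v w : E) :
    Integrable (fun x => ⟪f x, u⟫ * ⟪g x, v⟫ * ⟪h x, w⟫) μ := by
  refine integrable_bdd (C := ‖u‖ * ‖v‖ * ‖w‖) (((hf.measI u).mul (hg.measI v)).mul
    (hh.measI w)) fun x => ?_
  rw [abs_mul, abs_mul]
  exact mul_le_mul (mul_le_mul (hf.abs_le u x) (hg.abs_le v x) (abs_nonneg _) (norm_nonneg _))
    (hh.abs_le w x) (abs_nonneg _) (by positivity)

/-- a positive kernel of degree three -/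
theorem ker3_nonneg {f g h : X → E} (hf : UF f) (hg : UF g) (hh : UF h) :
    0 ≤ ∫ q : X × X, ⟪f q.1, f q.2⟫ * ⟪g q.1, g q.2⟫ * ⟪h q.1, h q.2⟫ ∂(μ.prod μ) := by
  let b := stdOrthonormalBasis ℝ E
  have e : ∀ q : X × X, ⟪f q.1, f q.2⟫ * ⟪g q.1, g q.2⟫ * ⟪h q.1, h q.2⟫
      = ∑ i, ∑ j, ∑ k, (⟪f q.1, b i⟫ * ⟪g q.1, b j⟫ * ⟪h q.1, b k⟫)
        * (⟪f q.2, b i⟫ * ⟪g q.2, b j⟫ * ⟪h q.2, b k⟫) := by
    intro q
    rw [← b.sum_inner_mul_inner (f q.1) (f q.2), ← b.sum_inner_mul_inner (g q.1) (g q.2),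
      ← b.sum_inner_mul_inner (h q.1) (h q.2), sum3]
    refine Finset.sum_congr rfl fun i _ => Finset.sum_congr rfl fun j _ =>
      Finset.sum_congr rfl fun k _ => ?_
    rw [real_inner_comm (b i) (f q.2), real_inner_comm (b j) (g q.2),
      real_inner_comm (b k) (h q.2)]
    ring
  simp only [e]
  have hi : ∀ i j k, Integrable (fun q : X × X =>
      (⟪f q.1, b i⟫ * ⟪g q.1, b j⟫ * ⟪h q.1, b k⟫)
        * (⟪f q.2, b i⟫ * ⟪g q.2, b j⟫ * ⟪h q.2, b k⟫)) (μ.prod μ) :=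
    fun i j k => (integrable_mul3 hf hg hh _ _ _).mul_prod (integrable_mul3 hf hg hh _ _ _)
  rw [integral_finsetSum _ fun i _ => integrable_finsetSum _ fun j _ =>
    integrable_finsetSum _ fun k _ => hi i j k]
  refine Finset.sum_nonneg fun i _ => ?_
  rw [integral_finsetSum _ fun j _ => integrable_finsetSum _ fun k _ => hi i j k]
  refine Finset.sum_nonneg fun j _ => ?_
  rw [integral_finsetSum _ fun k _ => hi i j k]
  refine Finset.sum_nonneg fun k _ => ?_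
  rw [integral_prod_mul (fun x => ⟪f x, b i⟫ * ⟪g x, b j⟫ * ⟪h x, b k⟫)
    (fun x => ⟪f x, b i⟫ * ⟪g x, b j⟫ * ⟪h x, b k⟫)]
  exact mul_self_nonneg _

end

section

variable {E : Type*} [NormedAddCommGroup E] [InnerProductSpace ℝ E]

/-- the inequality of the Gram determinant -/
lemma gram_nonneg {x n y k : E} (hx : ‖x‖ = 1) (hn : ‖n‖ = 1) (hxn : ⟪x, n⟫ = 0)
    (hy : ‖y‖ = 1) (hk : ‖k‖ = 1) (hyk : ⟪y, k⟫ = 0) :
    0 ≤ 1 - ⟪x, y⟫ ^ 2 - ⟪x, k⟫ ^ 2 - ⟪n, y⟫ ^ 2 - ⟪n, k⟫ ^ 2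
      + (⟪x, y⟫ * ⟪n, k⟫ - ⟪x, k⟫ * ⟪n, y⟫) ^ 2 := by
  have hx2 : ⟪x, x⟫ = 1 := by rw [real_inner_self_eq_norm_sq, hx, one_pow]
  have hn2 : ⟪n, n⟫ = 1 := by rw [real_inner_self_eq_norm_sq, hn, one_pow]
  have hy2 : ⟪y, y⟫ = 1 := by rw [real_inner_self_eq_norm_sq, hy, one_pow]
  have hk2 : ⟪k, k⟫ = 1 := by rw [real_inner_self_eq_norm_sq, hk, one_pow]
  have hnx : ⟪n, x⟫ = 0 := by rw [real_inner_comm, hxn]
  set a : E := y - ⟪x, y⟫ • x - ⟪n, y⟫ • n with ha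
  set b : E := k - ⟪x, k⟫ • x - ⟪n, k⟫ • n with hb
  have e1 : ⟪a, a⟫ = 1 - ⟪x, y⟫ ^ 2 - ⟪n, y⟫ ^ 2 := by
    rw [ha]
    simp only [inner_sub_left, inner_sub_right, real_inner_smul_left, real_inner_smul_right, hx2,
      hn2, hy2, hxn, hnx, real_inner_comm x y, real_inner_comm n y]
    ring
  have e2 : ⟪b, b⟫ = 1 - ⟪x, k⟫ ^ 2 - ⟪n, k⟫ ^ 2 := by
    rw [hb]
    simp only [inner_sub_left, inner_sub_right, real_inner_smul_left, real_inner_smul_right, hx2,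
      hn2, hk2, hxn, hnx, real_inner_comm x k, real_inner_comm n k]
    ring
  have e3 : ⟪a, b⟫ = -(⟪x, y⟫ * ⟪x, k⟫ + ⟪n, y⟫ * ⟪n, k⟫) := by
    rw [ha, hb]
    simp only [inner_sub_left, inner_sub_right, real_inner_smul_left, real_inner_smul_right, hx2,
      hn2, hyk, hxn, hnx, real_inner_comm x y, real_inner_comm n y]
    ring
  have h := real_inner_mul_inner_self_le a b
  rw [e1, e2, e3] at h
  nlinarith [h]

end

section

variable {V W M : Type*} [NormedAddCommGroup V] [InnerProductSpace ℝ V] [FiniteDimensional ℝ V]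
  [NormedAddCommGroup W] [InnerProductSpace ℝ W] [FiniteDimensional ℝ W]
  [MeasurableSpace W] [BorelSpace W]
  [TopologicalSpace M] [ChartedSpace V M]
  [MeasurableSpace V] [BorelSpace V] [MeasurableSpace M] [BorelSpace M]
  [IsManifold 𝓘(ℝ, V) ∞ M] [CompactSpace M] [T2Space M]

/-- the positive kernels `s ^ 3` and `s * c ^ 2` -/
theorem kers (hW : finrank ℝ W = finrank ℝ V + 2) {F : M → W}
    (hF : SphImm V F) (hmin : ∀ x n, IsUnitNormal V F x n → meanCurv V F x n = 0)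
    {N : M → W} (hNs : ContMDiff 𝓘(ℝ, V) 𝓘(ℝ, W) ∞ N) (hN : ∀ x, IsUnitNormal V F x (N x)) :
    0 ≤ ∫ q, (SM2.pr F N q).1 ^ 3 ∂((volM V F).prod (volM V F)) ∧
    0 ≤ ∫ q, (SM2.pr F N q).1 * (SM2.pr F N q).2.2.2 ^ 2 ∂((volM V F).prod (volM V F)) := by
  have hfin : IsFiniteMeasure (volM V F) := isFiniteMeasure_volM hF
  have h2 := two_of_min hW hF hmin hNs hN
  have u1 : UF F := ⟨h2.mp, h2.np⟩
  have u2 : UF N := ⟨h2.mn, h2.nn⟩
  have k1 := ker3_nonneg (μ := volM V F) u1 u1 u1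
  have k2 := ker3_nonneg (μ := volM V F) u1 u2 u2
  refine ⟨k1.trans_eq ?_, k2.trans_eq ?_⟩
  · refine integral_congr_ae (Eventually.of_forall fun q => ?_)
    simp only [SM2.pr]
    ring
  · refine integral_congr_ae (Eventually.of_forall fun q => ?_)
    simp only [SM2.pr]
    ring

/-- the domain of the pair data -/
structure Dm (k : R4) : Prop where
  b1 : k.1 ^ 2 + k.2.1 ^ 2 ≤ 1
  b2 : k.1 ^ 2 + k.2.2.1 ^ 2 ≤ 1
  b3 : k.2.1 ^ 2 + k.2.2.2 ^ 2 ≤ 1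
  b4 : k.2.2.1 ^ 2 + k.2.2.2 ^ 2 ≤ 1
  gr : 0 ≤ 1 - k.1 ^ 2 - k.2.1 ^ 2 - k.2.2.1 ^ 2 - k.2.2.2 ^ 2
    + (k.1 * k.2.2.2 - k.2.1 * k.2.2.1) ^ 2

/-- the pair data are in the domain -/
theorem dm_pr (hW : finrank ℝ W = finrank ℝ V + 2) {F : M → W}
    (hF : SphImm V F) (hmin : ∀ x n, IsUnitNormal V F x n → meanCurv V F x n = 0)
    {N : M → W} (hNs : ContMDiff 𝓘(ℝ, V) 𝓘(ℝ, W) ∞ N) (hN : ∀ x, IsUnitNormal V F x (N x))
    (q : M × M) : Dm (SM2.pr F N q) := by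
  have h2 := two_of_min hW hF hmin hNs hN
  have hsw : ∀ {a b x : W}, ‖a‖ = 1 → ‖b‖ = 1 → ⟪a, b⟫ = 0 → ‖x‖ = 1 →
      ⟪a, x⟫ ^ 2 + ⟪b, x⟫ ^ 2 ≤ 1 := by
    intro a b x ha hb hab hx
    have h5 := bessel (a := x) hx ha hb hab
    rw [real_inner_comm, real_inner_comm b] at h5
    exact h5
  refine ⟨bessel (h2.np _) (h2.np _) (h2.nn _) (h2.pn _),
    hsw (h2.np _) (h2.nn _) (h2.pn _) (h2.np _), ?_, bessel (h2.nn _) (h2.np _) (h2.nn _) (h2.pn _),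
    gram_nonneg (h2.np _) (h2.nn _) (h2.pn _) (h2.np _) (h2.nn _) (h2.pn _)⟩
  exact hsw (h2.np _) (h2.nn _) (h2.pn _) (h2.nn _)

end

end Vale.Agent.P224.R2.H433
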