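import Vale.Agent.P224.R2.H433.Dens
import Vale.Agent.P224.R2.H433.Ker3
import Vale.Agent.P224.R2.H178.Law3F

/-!
The law of the certificate in dimension three: assembly.
-/

namespace Vale.Agent.P224.R2.H433

open MeasureTheory Set Filter Function Real Module Vale.Agent.P224 Vale.Agent.P224.FV
  Vale.Agent.P224.UE Vale.Agent.P224.PO Vale.Agent.P224.R2.H178 Vale.Agent.P224.R2.H925
open Vale.Agent.P224.SM2 hiding ker
open scoped RealInnerProductSpace Topology ContDiff Manifold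

set_option linter.unusedSectionVars false

/-- the reference quadratic form -/
noncomputable def qf (s x y c : ℝ) : ℝ := (c - s - (x + y) / 2) ^ 2 + 4 * (y - x) ^ 2

/-- the pointwise lower bound of the defect -/
def Minor (u : St) (L : QL) (d : ℝ) (δ : ℝ → ℝ) : Prop :=
  ∀ T ∈ Ioo (0 : ℝ) 1, ∀ k : R4, Dm k →
    dq u L d T k - δ T * qf k.1 (d * k.2.1) (d * k.2.2.1) k.2.2.2 ≤ dK 3 d u T k

/-- the certificate -/
def Cert (u : St) (L : QL) (f g h : List (ℝ × ℕ × ℕ)) (μ k1 k2 W1 W2 δ0 : ℝ) : Prop :=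
  ∀ s x y c : ℝ, s ^ 2 + 2 * x ^ 2 ≤ 1 → s ^ 2 + 2 * y ^ 2 ≤ 1 →
    2 * x ^ 2 + c ^ 2 ≤ 1 → 2 * y ^ 2 + c ^ 2 ≤ 1 →
    0 ≤ 1 - s ^ 2 - 2 * x ^ 2 - 2 * y ^ 2 - c ^ 2 + (s * c - 2 * x * y) ^ 2 →
    δ0 * qf s x y c ≤ SF u L s x y c + rows f g h s x y c + μ * c - k1 * s ^ 3 - k2 * (s * c ^ 2)
      - W1 * (c - s - (x + y) / 2) ^ 2 - 4 * W2 * (y - x) ^ 2

lemma continuous_qf (d : ℝ) :
    Continuous fun k : R4 => qf k.1 (d * k.2.1) (d * k.2.2.1) k.2.2.2 := by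
  unfold qf
  fun_prop

lemma qf_nonneg (s x y c : ℝ) : 0 ≤ qf s x y c := by
  unfold qf
  positivity

lemma Dm.mem {k : R4} (h : Dm k) : k ∈ KK := by
  have q : ∀ {a b : ℝ}, a ^ 2 + b ^ 2 ≤ 1 → a ∈ Icc (-1 : ℝ) 1 := fun {a b} hab =>
    abs_le.1 ((sq_le_one_iff_abs_le_one a).1 (by nlinarith [sq_nonneg b]))
  have q' : ∀ {a b : ℝ}, a ^ 2 + b ^ 2 ≤ 1 → b ∈ Icc (-1 : ℝ) 1 := fun {a b} hab =>
    q (a := b) (b := a) (by linarith)
  exact ⟨q h.b1, q' h.b1, q' h.b2, q' h.b3⟩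

section

variable {V W M : Type*} [NormedAddCommGroup V] [InnerProductSpace ℝ V] [FiniteDimensional ℝ V]
  [NormedAddCommGroup W] [InnerProductSpace ℝ W] [FiniteDimensional ℝ W]
  [TopologicalSpace M] [ChartedSpace V M]
  [MeasurableSpace V] [BorelSpace V] [MeasurableSpace M] [BorelSpace M]
  [IsManifold 𝓘(ℝ, V) ∞ M] [CompactSpace M] [T2Space M] [ConnectedSpace M]
  [MeasurableSpace W] [BorelSpace W]

/-- the lower bound of the integrated defect -/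
theorem exists_B (hV : finrank ℝ V = 3) (hW : finrank ℝ W = finrank ℝ V + 2) {F : M → W}
    (hF : SphImm V F) (hmin : ∀ x n, IsUnitNormal V F x n → meanCurv V F x n = 0)
    {u : St} {L : QL} {d : ℝ} (hd : d ^ 2 = 1 / 2) (hu : FInt u) (hL : L.Ok) {δ : ℝ → ℝ} {δ0 : ℝ}
    (hδ : IntervalIntegrable δ volume 0 1) (hδ0 : ∫ T in (0 : ℝ)..1, δ T ≤ δ0)
    (hM : Minor u L d δ) {f g h : List (ℝ × ℕ × ℕ)} {μ k1 k2 W1 W2 : ℝ} (hk1 : 0 ≤ k1)
    (hk2 : 0 ≤ k2) (hC : Cert u L f g h μ k1 k2 W1 W2 δ0)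
    {N : M → W} (hNs : ContMDiff 𝓘(ℝ, V) 𝓘(ℝ, W) ∞ N) (hN : ∀ x, IsUnitNormal V F x (N x)) :
    ∃ B : ℝ → ℝ, IntervalIntegrable B volume 0 1 ∧
      (∀ T ∈ Ioo (0 : ℝ) 1, B T ≤ DS ((volM V F).prod (volM V F)) 3 (SM2.pr F N) d u T) ∧
      ∫ q, (Gw d W1 W2 (SM2.pr F N q) - μ * (SM2.pr F N q).2.2.2) ∂((volM V F).prod (volM V F))
        ≤ ∫ T in (0 : ℝ)..1, B T := by
  have hfin : IsFiniteMeasure (volM V F) := isFiniteMeasure_volM hF
  have h2 := two_of_min hW hF hmin hNs hN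
  have hP := PL_of_min hW hF hmin hNs hN
  have hR := PR_of_min hW hF hmin hNs hN
  rw [hV] at hP hR
  have hR' : PR ((volM V F).prod (volM V F)) 3 (SM2.pr F N) := by exact_mod_cast hR
  have hD := dm_pr hW hF hmin hNs hN
  obtain ⟨hk3, hk4⟩ := kers hW hF hmin hNs hN
  set ν := (volM V F).prod (volM V F) with hν
  set κ := SM2.pr F N with hκ
  have hmem : ∀ q, κ q ∈ KK := fun q => (hD q).mem
  have hfub := fub_dens (ν := ν) u L h2.measurable_pr hmem hu hL d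
  have hint : ∀ {G : R4 → ℝ}, Continuous G → Integrable (fun q => G (κ q)) ν := fun hG =>
    integrable_param ν h2.measurable_pr isCompact_KK hmem hG.measurable hG.continuousOn
  have iq := hint (continuous_qf d)
  set D := ∫ q, qf (κ q).1 (d * (κ q).2.1) (d * (κ q).2.2.1) (κ q).2.2.2 ∂ν with hDd
  have hD0 : 0 ≤ D := integral_nonneg fun q => qf_nonneg _ _ _ _
  refine ⟨fun T => (∫ q, dq u L d T (κ q) ∂ν) - δ T * D, hfub.ii.sub (hδ.mul_const D), ?_, ?_⟩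
  · intro T hT
    have hT' : T ∈ Ico (0 : ℝ) 1 := ⟨hT.1.le, hT.2⟩
    have i1 := hfub.int T
    have i2 : Integrable (fun q => dK 3 d u T (κ q)) ν := integrable_fK hP hT' _ _ _ _ _ _ _
    have i3 : Integrable (fun q => δ T * qf (κ q).1 (d * (κ q).2.1) (d * (κ q).2.2.1)
        (κ q).2.2.2) ν := iq.const_mul _
    unfold DS
    have e7 : (∫ q, dq u L d T (κ q) ∂ν) - δ T * D = ∫ q, (dq u L d T (κ q)
        - δ T * qf (κ q).1 (d * (κ q).2.1) (d * (κ q).2.2.1) (κ q).2.2.2) ∂ν := by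
      rw [integral_sub i1 i3, integral_const_mul]
    simp only [e7]
    exact integral_mono (i1.sub i3) i2 fun q => hM T hT (κ q) (hD q)
  · rw [intervalIntegral.integral_sub hfub.ii (hδ.mul_const D), hfub.eq,
      intervalIntegral.integral_mul_const]
    have iS := hfub.intg
    have zr := zi_rows hd hR' f g h
    have iG : Integrable (fun q => Gw d W1 W2 (κ q)) ν := hint (by unfold Gw; fun_prop)
    have ic : Integrable (fun q => (κ q).2.2.2) ν := hint (G := fun k => k.2.2.2) (by fun_prop)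
    have i3 : Integrable (fun q => (κ q).1 ^ 3) ν := hint (G := fun k => k.1 ^ 3) (by fun_prop)
    have i4 : Integrable (fun q => (κ q).1 * (κ q).2.2.2 ^ 2) ν :=
      hint (G := fun k => k.1 * k.2.2.2 ^ 2) (by fun_prop)
    -- the pointwise inequality
    have hpt : ∀ q, (Gw d W1 W2 (κ q) - μ * (κ q).2.2.2)
        + (δ0 * qf (κ q).1 (d * (κ q).2.1) (d * (κ q).2.2.1) (κ q).2.2.2
          + (k1 * (κ q).1 ^ 3 + k2 * ((κ q).1 * (κ q).2.2.2 ^ 2)))
        ≤ SF u L (κ q).1 (d * (κ q).2.1) (d * (κ q).2.2.1) (κ q).2.2.2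
          + rows f g h (κ q).1 (d * (κ q).2.1) (d * (κ q).2.2.1) (κ q).2.2.2 := by
      intro q
      have hq := hD q
      have e1 : ∀ z : ℝ, 2 * (d * z) ^ 2 = z ^ 2 := fun z => by
        rw [mul_pow, hd]
        ring
      have e2 : 2 * (d * (κ q).2.1) * (d * (κ q).2.2.1) = (κ q).2.1 * (κ q).2.2.1 := by
        have : 2 * (d * (κ q).2.1) * (d * (κ q).2.2.1)
            = 2 * d ^ 2 * ((κ q).2.1 * (κ q).2.2.1) := by ring
        rw [this, hd]
        ring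
      have h5 := hC (κ q).1 (d * (κ q).2.1) (d * (κ q).2.2.1) (κ q).2.2.2
        (by rw [e1]; exact hq.b1) (by rw [e1]; exact hq.b2)
        (by rw [e1]; exact hq.b3) (by rw [e1]; exact hq.b4)
        (by rw [e1, e1, e2]; exact hq.gr)
      have e3 : Gw d W1 W2 (κ q) = W1 * ((κ q).2.2.2 - (κ q).1
          - (d * (κ q).2.1 + d * (κ q).2.2.1) / 2) ^ 2
          + 4 * W2 * (d * (κ q).2.2.1 - d * (κ q).2.1) ^ 2 := by
        unfold Gw
        have e4 : (d * (κ q).2.2.1 - d * (κ q).2.1) ^ 2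
            = d ^ 2 * ((κ q).2.1 - (κ q).2.2.1) ^ 2 := by ring
        rw [e4, hd]
        ring
      rw [e3]
      linarith
    have iL1 : Integrable (fun q => Gw d W1 W2 (κ q) - μ * (κ q).2.2.2) ν :=
      iG.sub (ic.const_mul μ)
    have iL2 : Integrable (fun q => k1 * (κ q).1 ^ 3 + k2 * ((κ q).1 * (κ q).2.2.2 ^ 2)) ν :=
      (i3.const_mul k1).add (i4.const_mul k2)
    have iL3 : Integrable (fun q => δ0 * qf (κ q).1 (d * (κ q).2.1) (d * (κ q).2.2.1) (κ q).2.2.2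
          + (k1 * (κ q).1 ^ 3 + k2 * ((κ q).1 * (κ q).2.2.2 ^ 2))) ν := (iq.const_mul δ0).add iL2
    have hle := integral_mono (iL1.add iL3) (iS.add zr.1) hpt
    simp only [Pi.add_apply] at hle
    rw [integral_add iL1 iL3, integral_add (iq.const_mul δ0) iL2,
      integral_add (i3.const_mul k1) (i4.const_mul k2), integral_const_mul, integral_const_mul,
      integral_const_mul, integral_add iS zr.1, zr.2, add_zero, ← hDd] at hle
    have h6 := mul_nonneg hk1 hk3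
    have h7 := mul_nonneg hk2 hk4
    have h8 := mul_le_mul_of_nonneg_right hδ0 hD0
    linarith

/-- **the law of the certificate in dimension three** -/
theorem law_cert (hV : finrank ℝ V = 3) (hW : finrank ℝ W = finrank ℝ V + 2) {F : M → W}
    (hF : SphImm V F) (hmin : ∀ x n, IsUnitNormal V F x n → meanCurv V F x n = 0)
    (hinj : Injective F) {d ε0 r0 : ℝ} {u : St} (hd : d ^ 2 = 1 / 2) (hs : Sys 3 d u)
    (h0 : Lim0 3 d u ε0 r0 (1 / 4 * ε0 + Fc)) (h1 : Lim1 3 u (9 / 8))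
    {L : QL} (hu : FInt u) (hL : L.Ok) {δ : ℝ → ℝ} {δ0 : ℝ}
    (hδ : IntervalIntegrable δ volume 0 1) (hδ0 : ∫ T in (0 : ℝ)..1, δ T ≤ δ0)
    (hM : Minor u L d δ) {f g h : List (ℝ × ℕ × ℕ)} {μ k1 k2 W1 W2 : ℝ} (hk1 : 0 ≤ k1)
    (hk2 : 0 ≤ k2) (hC : Cert u L f g h μ k1 k2 W1 W2 δ0) :
    LawTP V 3 F (8 / 3 * √(1 / 3)) ((3 * r0 + μ) / Fc) (RF3 d ε0 W1 W2) :=
  lawTP_flow hV hW hF hmin hinj hd hs h0 h1 fun N hNs hN _ =>
    exists_B hV hW hF hmin hd hu hL hδ hδ0 hM hk1 hk2 hC hNs hN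

end

end Vale.Agent.P224.R2.H433
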