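import Vale.Agent.P224.R2.H433.Fub
import Vale.Agent.P224.R2.H925.Sys

/-!
The defect in dimension three in scaled variables, its minorant with polynomial kernels, and the
integral of the minorant over `T`.
-/

namespace Vale.Agent.P224.R2.H433

open MeasureTheory Set Filter Function Real Vale.Agent.P224.SM2 Vale.Agent.P224.R2.H925
open scoped Topology

set_option linter.unusedSectionVars false

/-- the quadratic density with eight coefficients -/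
noncomputable def SS (a b n0 n1 n2 n3 n4 n5 s x y c : ℝ) : ℝ :=
  ((a + 2 * x * b) * (c - s - x) ^ 2 + (a + 2 * y * b) * (c - s - y) ^ 2) / 2
  - (y - x) ^ 2 * (n0 + n1 * (x + y) + n2 * (x * y) + n3 * (x * y * (x + y))
    + c * (n4 + n5 * (x + y)))

/-- the density at level `T`: `v = 1 - T s`, `P`, `R` are the powers `v⁻⁵`, `v⁻⁷` or minorants -/
noncomputable def dens (T e ε ρ w r v P R s x y c : ℝ) : ℝ :=
  SS (3 * e * (v * P)) (ε * P)
    (-3 * (w + 3 * r) * (v ^ 3 * R) + 2 * T * (-12 * T * r - 2 * ρ) * (v ^ 2 * R))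
    ((-6 * ρ - ε) * (v ^ 2 * R) - 15 * T ^ 2 * ρ * (v * R))
    (10 * T * (-12 * T * r - 2 * ρ) * (v * R))
    (-60 * T ^ 2 * ρ * R)
    ((2 * (-12 * T * r - 2 * ρ) + 12 * T * e) * (v ^ 2 * R))
    ((-15 * T * ρ + 5 * T * ε) * (v * R)) s x y c

/-- the brackets -/
noncomputable def brA (e ε v x : ℝ) : ℝ := 3 * e * v + 2 * x * ε
noncomputable def brB (T e ε ρ w r v x y c : ℝ) : ℝ :=
  -3 * (w + 3 * r) * v ^ 3 + 2 * T * (-12 * T * r - 2 * ρ) * v ^ 2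
  + ((-6 * ρ - ε) * v ^ 2 - 15 * T ^ 2 * ρ * v) * (x + y)
  + 10 * T * (-12 * T * r - 2 * ρ) * v * (x * y) - 60 * T ^ 2 * ρ * (x * y * (x + y))
  + c * ((2 * (-12 * T * r - 2 * ρ) + 12 * T * e) * v ^ 2 + (-15 * T * ρ + 5 * T * ε) * v * (x + y))

lemma dens_eq (T e ε ρ w r v P R s x y c : ℝ) :
    dens T e ε ρ w r v P R s x y c
      = (brA e ε v x * (c - s - x) ^ 2 + brA e ε v y * (c - s - y) ^ 2) / 2 * P
        - (y - x) ^ 2 * brB T e ε ρ w r v x y c * R := by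
  unfold dens SS brA brB
  ring

/-- the defect in scaled variables -/
theorem dK_eq {d : ℝ} (hd : d ^ 2 = 1 / 2) (u : St) {T : ℝ} (hT : T ∈ Ioo (0 : ℝ) 1) (k : R4)
    (hk : k.1 ≤ 1) :
    dK 3 d u T k = dens T (u.e T) (u.ε T) (u.ρ T) (T * u.y T) (u.r T) (1 - T * k.1)
      (((1 - T * k.1) ^ 5)⁻¹) (((1 - T * k.1) ^ 7)⁻¹) k.1 (d * k.2.1) (d * k.2.2.1) k.2.2.2 := by
  have hv : (0 : ℝ) < 1 - T * k.1 := one_sub_pos' ⟨hT.1.le, hT.2⟩ hk
  have hT0 : T ≠ 0 := hT.1.ne'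
  obtain ⟨s, t, p, c⟩ := k
  simp only at hv ⊢
  have hv0 := hv.ne'
  have k1 : u.K1 3 d T = d * (-(3 / 2 * u.ρ T) - 1 / 4 * u.ε T) := by
    unfold St.K1 St.F3 St.X2
    rw [hd]
    field_simp
    ring
  have k2 : u.F2 3 d T = -12 * T * u.r T - 2 * u.ρ T := by
    unfold St.F2
    rw [hd]
    ring
  have k3 : u.F3 3 d T = -5 * (d * (T * u.ρ T)) := by
    unfold St.F3
    ring
  have hP : ∀ j : ℕ, SM2.ker T 3 s / (1 - T * s) ^ j = ((1 - T * s) ^ (3 + j))⁻¹ := fun j => by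
    unfold SM2.ker
    rw [pow_add, mul_inv, div_eq_mul_inv]
  have h1 := hP 1
  have h2 := hP 2
  have h3 := hP 3
  have h4 := hP 4
  rw [pow_one] at h1
  unfold dK fK fV
  simp only [h1, h2, h3, h4]
  push_cast
  rw [k1, k2, k3, dens_eq]
  unfold brA brB
  have e1 : ∀ j : ℕ, j ≤ 4 → ((1 - T * s) ^ (3 + j))⁻¹ = (1 - T * s) ^ (4 - j) * ((1 - T * s) ^ 7)⁻¹ := by
    intro j hj
    have : 3 + j + (4 - j) = 7 := by omega
    rw [← this, pow_add]
    field_simp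
    rw [pow_add, pow_add]
  have f1 := e1 1 (by norm_num)
  have f2 := e1 2 (by norm_num)
  have f3 := e1 3 (by norm_num)
  norm_num at f1 f2 f3
  have f5 : ((1 - T * s) ^ 5)⁻¹ = (1 - T * s) ^ 2 * ((1 - T * s) ^ 7)⁻¹ := f2
  norm_num
  rw [f1, f2, f3]
  generalize ((1 - T * s) ^ 7)⁻¹ = R
  generalize 1 - T * s = v
  have hdd : d * d = 1 / 2 := by rw [← sq, hd]
  have hh : ∀ z : ℝ, (p - t) ^ 2 / 2 * z = (d * p - d * t) ^ 2 * z := fun z => by
    have : (d * p - d * t) ^ 2 = d ^ 2 * (p - t) ^ 2 := by ring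
    rw [this, hd]
    ring
  rw [hh]
  have hpt : p * t = 2 * (d * t * (d * p)) := by
    have : d * t * (d * p) = d ^ 2 * (t * p) := by ring
    rw [this, hd]
    ring
  rw [hpt]
  ring

section

variable {Q : Type*} [MeasurableSpace Q] {ν : Measure Q} [IsFiniteMeasure ν] {κ : Q → R4}

/-- the lists -/
structure QL where
  A0 : List ℝ
  Q5 : List ℝ
  B3 : List ℝ
  B2 : List ℝ
  B1 : List ℝ
  B0 : List ℝ

/-- the lists are the products of the minorants with the powers of `1 - x` -/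
structure QL.Ok (L : QL) : Prop where
  a0 : ∀ x, ev L.A0 x = (1 - x) * ev L.Q5 x
  b1 : ∀ x, ev L.B1 x = (1 - x) * ev L.B0 x
  b2 : ∀ x, ev L.B2 x = (1 - x) ^ 2 * ev L.B0 x
  b3 : ∀ x, ev L.B3 x = (1 - x) ^ 3 * ev L.B0 x

variable (u : St) (L : QL)

/-- the eight coefficients after integration over `T` -/
noncomputable def ga (s : ℝ) : ℝ := 3 * EE u.e L.A0 0 s
noncomputable def gb (s : ℝ) : ℝ := EE u.ε L.Q5 0 s
noncomputable def g0 (s : ℝ) : ℝ :=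
  -3 * EE (fun T => T * u.y T) L.B3 0 s - 9 * EE u.r L.B3 0 s - 24 * EE u.r L.B2 2 s
    - 4 * EE u.ρ L.B2 1 s
noncomputable def g1 (s : ℝ) : ℝ :=
  -6 * EE u.ρ L.B2 0 s - EE u.ε L.B2 0 s - 15 * EE u.ρ L.B1 2 s
noncomputable def g2 (s : ℝ) : ℝ := -120 * EE u.r L.B1 2 s - 20 * EE u.ρ L.B1 1 s
noncomputable def g3 (s : ℝ) : ℝ := -60 * EE u.ρ L.B0 2 s
noncomputable def g4 (s : ℝ) : ℝ :=
  -24 * EE u.r L.B2 1 s - 4 * EE u.ρ L.B2 0 s + 12 * EE u.e L.B2 1 s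
noncomputable def g5 (s : ℝ) : ℝ := -15 * EE u.ρ L.B1 1 s + 5 * EE u.ε L.B1 1 s

/-- the density after integration over `T` -/
noncomputable def SF (s x y c : ℝ) : ℝ :=
  SS (ga u L s) (gb u L s) (g0 u L s) (g1 u L s) (g2 u L s) (g3 u L s) (g4 u L s) (g5 u L s) s x y c

/-- integrability of the functions of the flow -/
structure FInt (u : St) : Prop where
  e : IntervalIntegrable u.e volume 0 1
  ε : IntervalIntegrable u.ε volume 0 1
  ρ : IntervalIntegrable u.ρ volume 0 1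
  w : IntervalIntegrable (fun T => T * u.y T) volume 0 1
  r : IntervalIntegrable u.r volume 0 1

/-- the minorant at level `T` -/
noncomputable def dq (u : St) (L : QL) (d T : ℝ) (k : R4) : ℝ :=
  dens T (u.e T) (u.ε T) (u.ρ T) (T * u.y T) (u.r T) (1 - T * k.1) (ev L.Q5 (T * k.1))
    (ev L.B0 (T * k.1)) k.1 (d * k.2.1) (d * k.2.2.1) k.2.2.2

/-- **integration over `T`** -/
theorem fub_dens (hκ : Measurable κ) (hm : ∀ x, κ x ∈ KK) (hu : FInt u) (hL : L.Ok) (d : ℝ) :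
    Fub ν (fun T q => dq u L d T (κ q))
      (fun q => SF u L (κ q).1 (d * (κ q).2.1) (d * (κ q).2.2.1) (κ q).2.2.2) := by
  have base := fun {F : ℝ → ℝ} (hF : IntervalIntegrable F volume 0 1) (l : List ℝ) (j : ℕ)
    (φ : R4 → ℝ) (hφ : Continuous φ) => Fub.list (ν := ν) hκ hm hF l j φ hφ
  -- the monomials
  let pa : R4 → ℝ := fun k =>
    ((k.2.2.2 - k.1 - d * k.2.1) ^ 2 + (k.2.2.2 - k.1 - d * k.2.2.1) ^ 2) / 2
  let pb : R4 → ℝ := fun k => (d * k.2.1) * (k.2.2.2 - k.1 - d * k.2.1) ^ 2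
    + (d * k.2.2.1) * (k.2.2.2 - k.1 - d * k.2.2.1) ^ 2
  let p0 : R4 → ℝ := fun k => -(d * k.2.2.1 - d * k.2.1) ^ 2
  let p1 : R4 → ℝ := fun k => -(d * k.2.2.1 - d * k.2.1) ^ 2 * (d * k.2.1 + d * k.2.2.1)
  let p2 : R4 → ℝ := fun k => -(d * k.2.2.1 - d * k.2.1) ^ 2 * (d * k.2.1 * (d * k.2.2.1))
  let p3 : R4 → ℝ := fun k => -(d * k.2.2.1 - d * k.2.1) ^ 2
    * (d * k.2.1 * (d * k.2.2.1) * (d * k.2.1 + d * k.2.2.1))
  let p4 : R4 → ℝ := fun k => -(d * k.2.2.1 - d * k.2.1) ^ 2 * k.2.2.2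
  let p5 : R4 → ℝ := fun k => -(d * k.2.2.1 - d * k.2.1) ^ 2 * (k.2.2.2 * (d * k.2.1 + d * k.2.2.1))
  have ca : Continuous pa := by fun_prop
  have cb : Continuous pb := by fun_prop
  have c0 : Continuous p0 := by fun_prop
  have c1 : Continuous p1 := by fun_prop
  have c2 : Continuous p2 := by fun_prop
  have c3 : Continuous p3 := by fun_prop
  have c4 : Continuous p4 := by fun_prop
  have c5 : Continuous p5 := by fun_prop
  have h := (((((((((((((((((base hu.e L.A0 0 pa ca).cmul 3).add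
    ((base hu.ε L.Q5 0 pb cb).cmul 1)).add
    ((base hu.w L.B3 0 p0 c0).cmul (-3))).add
    ((base hu.r L.B3 0 p0 c0).cmul (-9))).add
    ((base hu.r L.B2 2 p0 c0).cmul (-24))).add
    ((base hu.ρ L.B2 1 p0 c0).cmul (-4))).add
    ((base hu.ρ L.B2 0 p1 c1).cmul (-6))).add
    ((base hu.ε L.B2 0 p1 c1).cmul (-1))).add
    ((base hu.ρ L.B1 2 p1 c1).cmul (-15))).add
    ((base hu.r L.B1 2 p2 c2).cmul (-120))).add
    ((base hu.ρ L.B1 1 p2 c2).cmul (-20))).add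
    ((base hu.ρ L.B0 2 p3 c3).cmul (-60))).add
    ((base hu.r L.B2 1 p4 c4).cmul (-24))).add
    ((base hu.ρ L.B2 0 p4 c4).cmul (-4))).add
    ((base hu.e L.B2 1 p4 c4).cmul 12)).add
    ((base hu.ρ L.B1 1 p5 c5).cmul (-15))).add
    ((base hu.ε L.B1 1 p5 c5).cmul 5)
  refine h.congr (fun T q => ?_) (fun q => ?_)
  · unfold dq dens SS
    simp only [hL.a0, hL.b1, hL.b2, hL.b3, pa, pb, p0, p1, p2, p3, p4, p5]
    ring
  · unfold SF SS ga gb g0 g1 g2 g3 g4 g5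
    simp only [pa, pb, p0, p1, p2, p3, p4, p5]
    ring

end

end Vale.Agent.P224.R2.H433
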