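import Vale.Agent.P224.R2.H728.Nb
import Vale.Agent.P224.R2.H579.ELaw

/-!
The bound of the deviation by the defect, for all large dimensions.
-/

namespace Vale.Agent.P224.R2.H433

open MeasureTheory Set Filter Function Real Finset Matrix Vale.Agent.P224.R2.H582
  Vale.Agent.P224.R2.H728 Vale.Agent.P224.R2.H579

set_option linter.unusedSectionVars false

section

variable {ι Ω : Type*} [Fintype ι] [DecidableEq ι] [MeasurableSpace Ω] {μ : Measure Ω}
  {m : ℝ} {x N : ι → Ω → ℝ} {j : ι → ℝ}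

/-- the contraction of the mean normal with the third moments -/
lemma xi_cs (j : ι → ℝ) (N x : ι → Ω → ℝ) :
    |∑ b, m1 μ N b * xi μ j x b| ≤ √(uu μ N) * √(∑ a, j a ^ 2) * nX μ x := by
  have e1 : ∑ b, m1 μ N b * xi μ j x b
      = s3 fun a b c => (j a * (if a = b then 1 else 0) * m1 μ N c) * m3 μ x x x a b c := by
    unfold s3 xi
    have e2 : ∀ c, m1 μ N c * ∑ a, j a * m3 μ x x x a a c
        = ∑ a, ∑ b, (j a * (if a = b then 1 else 0) * m1 μ N c) * m3 μ x x x a b c := by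
      intro c
      rw [Finset.mul_sum]
      refine Finset.sum_congr rfl fun a _ => ?_
      simp
      ring
    simp_rw [e2]
    rw [Finset.sum_comm]
    exact Finset.sum_congr rfl fun a _ => Finset.sum_comm
  rw [e1]
  refine (s3_cs_abs _ _).trans ?_
  have e3 : (s3 fun a b c => (j a * (if a = b then (1 : ℝ) else 0) * m1 μ N c) ^ 2)
      = uu μ N * ∑ a, j a ^ 2 := by
    unfold s3 uu
    rw [mul_comm, Finset.sum_mul_sum]
    refine Finset.sum_congr rfl fun a _ => ?_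
    simp [mul_ite, ite_pow, ite_mul, mul_pow]
  have hu0 : 0 ≤ uu μ N := Finset.sum_nonneg fun _ _ => sq_nonneg _
  rw [e3, Real.sqrt_mul hu0]
  exact le_rfl

omit [MeasurableSpace Ω] in
/-- the real inequality for the second term of the first square -/
lemma dev_alg {m η u X Z k Q : ℝ} (hm : 400 ≤ m) (hη0 : 0 ≤ η) (hη : η ≤ 1 / 10 ^ 5)
    (hu0 : 0 ≤ u) (hu : u ≤ η) (hX : 0 ≤ X) (hZ : Z ≤ 4 / (m + 1) * (√u * √(5 / 4 * (m + 1)) * X))
    (hk : k ≤ 2 / 10 ^ 5)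
    (hQ : (m + 4) ^ 2 / 4 * X ^ 2 - (2 * (k * η + u / (m + 2)) + 2 * X * η + Z) ≤ Q) :
    -(51 / 10000 * η) ≤ Q := by
  have hm1 : 0 < m + 1 := by linarith
  obtain ⟨g, hg⟩ : ∃ g : ℝ, g = 4 / (m + 1) * √(5 / 4 * (m + 1)) := ⟨_, rfl⟩
  have hg2 : g ^ 2 = 20 / (m + 1) := by
    rw [hg, mul_pow, Real.sq_sqrt (by positivity)]
    field_simp
    ring
  have hv2 : √u ^ 2 = u := Real.sq_sqrt hu0
  have hZ' : Z ≤ g * √u * X := by
    refine hZ.trans (le_of_eq ?_)
    rw [hg]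
    ring
  obtain ⟨B, hB⟩ : ∃ B : ℝ, B = 2 * η + g * √u := ⟨_, rfl⟩
  have hm4 : 0 < (m + 4) ^ 2 := by positivity
  have h5 : -(B ^ 2 / (m + 4) ^ 2) ≤ (m + 4) ^ 2 / 4 * X ^ 2 - B * X := by
    have k2 : 0 ≤ (m + 4) ^ 2 / 4 * X ^ 2 - B * X + B ^ 2 / (m + 4) ^ 2 := by
      have e1 : (m + 4) ^ 2 / 4 * X ^ 2 - B * X + B ^ 2 / (m + 4) ^ 2
          = ((m + 4) ^ 2 * X - 2 * B) ^ 2 / (4 * (m + 4) ^ 2) := by
        field_simp
        ring
      rw [e1]
      positivity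
    linarith only [k2]
  have h6 : B ^ 2 ≤ 8 * η ^ 2 + 40 / (m + 1) * u := by
    have k1 : B ^ 2 ≤ 2 * ((2 * η) ^ 2 + (g * √u) ^ 2) := by
      have := sq_nonneg (2 * η - g * √u)
      rw [hB]
      linarith only [this]
    have k2 : (g * √u) ^ 2 = 20 / (m + 1) * u := by rw [mul_pow, hg2, hv2]
    rw [k2] at k1
    refine k1.trans (le_of_eq ?_)
    ring
  have h7 : B ^ 2 / (m + 4) ^ 2 ≤ 1 / 10 ^ 5 * η := by
    rw [div_le_iff₀ hm4]
    have k1 : 40 / (m + 1) * u ≤ 1 / 10 * η := by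
      have k2 : 40 / (m + 1) ≤ 1 / 10 := by
        rw [div_le_iff₀ hm1]
        linarith only [hm]
      exact mul_le_mul k2 hu hu0 (by norm_num)
    have k3 : 8 * η ^ 2 ≤ 1 / 10 * η := by
      have k2 : 8 * η ≤ 1 / 10 := by linarith only [hη]
      have := mul_le_mul_of_nonneg_right k2 hη0
      linarith only [this]
    have k4 : (160000 : ℝ) ≤ (m + 4) ^ 2 := by
      have k2 : (400 : ℝ) ≤ m + 4 := by linarith only [hm]
      have := pow_le_pow_left₀ (by norm_num) k2 2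
      norm_num at this
      exact this
    have k5 : 1 / 10 ^ 5 * η * 160000 ≤ 1 / 10 ^ 5 * η * (m + 4) ^ 2 :=
      mul_le_mul_of_nonneg_left k4 (by positivity)
    linarith only [h6, k1, k3, k5, hη0]
  have h8 : k * η ≤ 2 / 10 ^ 5 * η := mul_le_mul_of_nonneg_right hk hη0
  have h9 : u / (m + 2) ≤ 1 / 402 * η := by
    rw [div_le_iff₀ (by linarith only [hm])]
    have : 402 * η ≤ (m + 2) * η := mul_le_mul_of_nonneg_right (by linarith only [hm]) hη0
    linarith only [this, hu]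
  have k2 : B * X = 2 * X * η + g * √u * X := by
    rw [hB]
    ring
  linarith only [h5, h7, h8, h9, k2, hQ, hZ', hη0]

/-- the first square bounds the deviation -/
theorem dev_le (h : T0Data μ m x N) (hm : 400 ≤ m) (hj : ∑ a, j a ^ 2 ≤ 5 / 4 * (m + 1))
    {e γ τ gp H : ℝ} (he : 0 ≤ e) (he1 : e ≤ 1)
    (hlaw : m / ((m + 2) * (m + 4)) * Qcs μ x N + e * Qcss μ m x N - τ < γ * uu μ N + gp)
    (hu : uu μ N ≤ hh μ (diagonal j) x N) (hH : hh μ (diagonal j) x N ≤ H) (hH1 : H ≤ 1 / 10 ^ 5) :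
    m / ((m + 2) * (m + 4)) * fro (De μ x N) ≤ gp + τ + γ * uu μ N + 51 / 10000 * H := by
  have hm0 : 0 < m := by linarith
  have hu0 : 0 ≤ uu μ N := h.uu_nonneg
  have hη0 : 0 ≤ hh μ (diagonal j) x N := hu0.trans hu
  have hX0 : 0 ≤ nX μ x := h.nX_nonneg
  have hQ := h.Qpt_nonneg hm0.le
  have h1 := h.Qcs_eq hm0.le
  have h2 := h.Qcss_ge_sq hm0.le j
  have h3 := xi_cs (μ := μ) j N x
  have hm1 : 0 < m + 1 := by linarith
  have s1 : √(∑ a, j a ^ 2) ≤ √(5 / 4 * (m + 1)) := Real.sqrt_le_sqrt hj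
  have hv0 : 0 ≤ √(uu μ N) := Real.sqrt_nonneg _
  have h4 : 4 / (m + 1) * |∑ b, m1 μ N b * xi μ j x b|
      ≤ 4 / (m + 1) * (√(uu μ N) * √(5 / 4 * (m + 1)) * nX μ x) :=
    mul_le_mul_of_nonneg_left
      (h3.trans (mul_le_mul_of_nonneg_right (mul_le_mul_of_nonneg_left s1 hv0) hX0))
      (by positivity)
  have h8 : kq m ≤ 2 / 10 ^ 5 := by
    unfold kq
    rw [div_le_iff₀ (by positivity)]
    nlinarith
  have h10 := dev_alg hm hη0 (hH.trans hH1) hu0 hu hX0 h4 h8 h2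
  have hH0 : 0 ≤ H := hη0.trans hH
  have h11 : -(51 / 10000 * H) ≤ e * Qcss μ m x N := by
    have k1 := mul_le_mul_of_nonneg_left h10 he
    have k2 : e * (51 / 10000 * hh μ (diagonal j) x N)
        ≤ 1 * (51 / 10000 * hh μ (diagonal j) x N) :=
      mul_le_mul_of_nonneg_right he1 (by positivity)
    linarith only [k1, k2, hH]
  have h12 : 0 ≤ m / ((m + 2) * (m + 4)) * Qpt μ m x N := mul_nonneg (by positivity) hQ
  rw [h1, mul_add] at hlaw
  linarith only [hlaw, h11, h12]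

/-- the mean normal law for a deviation of order `1 / m` -/
theorem el_dev (h : T0Data μ m x N) (hm : 400 ≤ m) (hL : LSq μ (diagonal j) x N)
    (hf : fro (De μ x N) ≤ (10 / m) ^ 2) (hη : hh μ (diagonal j) x N ≤ 1 / 10 ^ 5) :
    99 / 100 * √(uu μ N) ≤ 22 / 5 * hh μ (diagonal j) x N := by
  have hm0 : 0 < m := by linarith
  have hδ0 : 0 ≤ 10 / m := by positivity
  have hδ : 10 / m ≤ 1 / 40 := by
    rw [div_le_iff₀ hm0]
    linarith
  have hδ1 : 10 / m < 1 := by linarith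
  have h1δ : 0 < 1 - 10 / m := by linarith
  set δ := 10 / m with hδd
  have hmδ : m * δ = 10 := by
    rw [hδd]
    field_simp
  have hhd0 : 0 ≤ hh μ (diagonal j) x N := h.hh_nonneg _
  set η : ℝ := 1 / 10 ^ 5 with hηd
  have hη0 : 0 ≤ η := by rw [hηd]; positivity
  have hηv : η = 1 / 10 ^ 5 := rfl
  have hE : Ew δ η ≤ 7 / 10000 := by
    unfold Ew
    have k1 : (δ + η) ^ 2 + η * (δ + η) ≤ 6272 / 10 ^ 7 := by
      rw [hηv]
      nlinarith
    have k2 : ((δ + η) ^ 2 + η * (δ + η)) / (1 - δ) ≤ 65 / 10 ^ 5 := by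
      rw [div_le_iff₀ h1δ]
      have : (39 / 40 : ℝ) ≤ 1 - δ := by linarith
      linarith
    rw [hηv] at k2 ⊢
    linarith
  have hE0 : 0 ≤ Ew δ η := Ew_nonneg hδ0 hδ1 hη0
  have hdd : δ / (1 - δ) ≤ 10 / (m - 10) := by
    rw [div_le_div_iff₀ h1δ (by linarith)]
    have : δ * (m - 10) = 10 - 10 * δ := by linarith
    linarith
  have hω0 : 0 ≤ (m + 2) * ((δ + η) / (1 - δ)) := by positivity
  have hwf : ∑ b, (j b ^ 2 - 1) ^ 2 ≤ ((m + 2) * ((δ + η) / (1 - δ))) ^ 2 := by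
    refine (h.w_fro hm0.le hL hδ0 hδ1 hf).trans ?_
    refine pow_le_pow_left₀ (by positivity) ?_ 2
    gcongr
  have hT0 : 0 ≤ 3 / (5 * m) := by positivity
  have k1 : |∑ b, j b| ≤ (m + 1) * (3 / (5 * m)) := by
    refine tr_le h hm0 hL hδ0 hf hω0 hwf hT0 ?_
    have r1 : (δ + η) / (1 - δ) ≤ 1 / 38 := by
      rw [div_le_iff₀ h1δ, hηv]
      linarith
    have r2 : (m + 2) * ((δ + η) / (1 - δ)) ≤ (m + 2) * (1 / 38) :=
      mul_le_mul_of_nonneg_left r1 (by linarith)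
    have r3 : m + 2 + δ * ((m + 2) * ((δ + η) / (1 - δ))) ≤ (m + 2) * (101 / 100) := by
      have : δ * ((m + 2) * ((δ + η) / (1 - δ))) ≤ 1 / 40 * ((m + 2) * (1 / 38)) :=
        mul_le_mul hδ r2 hω0 (by norm_num)
      linarith
    have r4 : δ ^ 2 * (m + 2 + δ * ((m + 2) * ((δ + η) / (1 - δ))))
        ≤ δ ^ 2 * ((m + 2) * (101 / 100)) := mul_le_mul_of_nonneg_left r3 (sq_nonneg _)
    refine r4.trans ?_
    have r5 : ((m + 1) * (3 / (5 * m))) ^ 2 = (m + 1) ^ 2 * (9 / (25 * m ^ 2)) := by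
      field_simp
      ring
    have r6 : δ ^ 2 = 100 / m ^ 2 := by
      rw [hδd]
      field_simp
      norm_num
    have r9 : (m + 1) ^ 2 * (9 / (25 * m ^ 2)) = (m + 1) ^ 2 * 9 / 25 / m ^ 2 := by
      field_simp
    have r10 : 100 / m ^ 2 * ((m + 2) * (101 / 100)) = (m + 2) * 101 / m ^ 2 := by
      field_simp
    rw [r5, r6, r9, r10]
    refine div_le_div_of_nonneg_right ?_ (sq_nonneg _)
    nlinarith only [hm]
  have hm1 : 0 < m + 1 := by linarith
  have hm4 : 0 < m + 4 := by linarith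
  have q1 : 39 / (40 * (m + 1)) ≤ (m - 4) / ((m + 1) * (m + 4)) := by
    rw [div_le_div_iff₀ (by positivity) (by positivity)]
    nlinarith
  have q2 : (m - 4) / ((m + 1) * (m + 4)) ≤ 1 / (m + 1) := by
    rw [div_le_div_iff₀ (by positivity) (by positivity)]
    nlinarith
  have q3 : 3 / (5 * m) / 2 ≤ 31 / (100 * (m + 1)) := by
    rw [div_div, div_le_div_iff₀ (by positivity) (by positivity)]
    linarith
  have q4 : 4 * Ew δ η / (m + 1) ≤ 28 / 10000 / (m + 1) := by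
    gcongr
    linarith
  have q5 : 1 / (m + 1) ≤ 1 / 401 := by
    rw [div_le_div_iff₀ (by positivity) (by positivity)]
    linarith
  have q6 : m / (m + 1) = 1 - 1 / (m + 1) := by
    field_simp
    ring
  have q7 : 2 * Ew δ η * (m + 2) / (m + 1) ≤ 2 * (7 / 10000) * (401 / 400) := by
    rw [div_le_iff₀ hm1]
    have : 2 * Ew δ η * (m + 2) ≤ 2 * (7 / 10000) * (m + 2) := by gcongr
    nlinarith
  have q8 : 39 / (40 * (m + 1)) = 39 / 40 * (1 / (m + 1)) := by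
    field_simp
  have q9 : 31 / (100 * (m + 1)) = 31 / 100 * (1 / (m + 1)) := by
    field_simp
  have q10 : 28 / 10000 / (m + 1) = 28 / 10000 * (1 / (m + 1)) := by
    field_simp
  have q0 : 0 < 1 / (m + 1) := by positivity
  have hc : 3 / (5 * m) / 2 + 4 * Ew δ η / (m + 1) ≤ (m - 4) / ((m + 1) * (m + 4)) := by
    rw [q8] at q1
    rw [q9] at q3
    rw [q10] at q4
    linarith
  have hLe : 99 / 100 ≤ m / (m + 1) - (m - 4) / ((m + 1) * (m + 4)) - 3 / (5 * m) / 2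
      - 2 * Ew δ η * (m + 2) / (m + 1) := by
    rw [q9] at q3
    rw [q6]
    linarith
  have key := e_law_closed h hm0 hL hδ0 hδ1 hf (η := η) (ρ := 17 / 5) (T := 3 / (5 * m))
    hη (by norm_num) (by
      have r1 : (m + 2) * (δ / (1 - δ)) ≤ (m + 2) * (10 / (m - 10)) :=
        mul_le_mul_of_nonneg_left hdd (by linarith)
      have r2 : (m + 2) * (10 / (m - 10)) ≤ 104 / 10 := by
        rw [mul_div_assoc', div_le_iff₀ (by linarith)]
        linarith
      have r3 : (1 : ℝ) + 104 / 10 ≤ (17 / 5) ^ 2 := by norm_num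
      linarith) (by
      have : ((17 / 5 : ℝ)) ^ 2 + 2 * (17 / 5) ≤ 19 := by norm_num
      linarith) k1 hc (by linarith)
  have hu : 0 ≤ √(uu μ N) := Real.sqrt_nonneg _
  calc 99 / 100 * √(uu μ N) ≤ _ := mul_le_mul_of_nonneg_right hLe hu
    _ ≤ (1 + 17 / 5) * hh μ (diagonal j) x N := key
    _ = 22 / 5 * hh μ (diagonal j) x N := by norm_num

/-- the bound of the diagonal moments of the normal -/
lemma m2_le (h : T0Data μ m x N) (hm : 400 ≤ m) (hf : fro (De μ x N) ≤ (10 / m) ^ 2) (a : ι) :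
    m2 μ N N a a ≤ 3 / 100 := by
  have hm0 : 0 < m := by linarith
  have h1 := h.P_eq a
  have h2 := h.abs_dd_le (δ := 10 / m) (by positivity) hf a
  have h3 := (abs_le.1 h2).2
  have h4 : (m + 1) * dd μ x N a ≤ (m + 1) * (10 / m) :=
    mul_le_mul_of_nonneg_left h3 (by linarith)
  have h5 : (m + 1) * (10 / m) ≤ 1003 / 100 := by
    rw [mul_div_assoc', div_le_iff₀ hm0]
    linarith
  have h6 : (m + 2) * m2 μ N N a a ≤ (m + 2) * (3 / 100) := by linarith
  exact le_of_mul_le_mul_left h6 (by linarith)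

end

end Vale.Agent.P224.R2.H433
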