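import Vale.Agent.P224.R2.H433.RowP

/-!
Integration in `T` of a polynomial in the pair data whose coefficients are functions of `T`.
-/

namespace Vale.Agent.P224.R2.H433

open MeasureTheory Set Filter Function Real Vale.Agent.P224.SM2 Vale.Agent.P224.R2.H925
open scoped Topology

set_option linter.unusedSectionVars false

/-- `g` is the integral over `T` of `f` -/
structure Fub {Q : Type*} [MeasurableSpace Q] (ν : Measure Q) (f : ℝ → Q → ℝ) (g : Q → ℝ) :
    Prop where
  int : ∀ T, Integrable (f T) ν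
  intg : Integrable g ν
  ii : IntervalIntegrable (fun T => ∫ x, f T x ∂ν) volume 0 1
  eq : ∫ T in (0 : ℝ)..1, (∫ x, f T x ∂ν) = ∫ x, g x ∂ν

section

variable {Q : Type*} [MeasurableSpace Q] {ν : Measure Q} {f f' : ℝ → Q → ℝ} {g g' : Q → ℝ}

lemma Fub.add (h : Fub ν f g) (h' : Fub ν f' g') :
    Fub ν (fun T x => f T x + f' T x) (fun x => g x + g' x) := by
  have e : (fun T => ∫ x, (f T x + f' T x) ∂ν) = fun T => (∫ x, f T x ∂ν) + ∫ x, f' T x ∂ν := by
    funext T
    exact integral_add (h.int T) (h'.int T)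
  refine ⟨fun T => (h.int T).add (h'.int T), h.intg.add h'.intg, ?_, ?_⟩
  · rw [e]
    exact h.ii.add h'.ii
  · rw [e, intervalIntegral.integral_add h.ii h'.ii, h.eq, h'.eq, integral_add h.intg h'.intg]

lemma Fub.cmul (h : Fub ν f g) (a : ℝ) : Fub ν (fun T x => a * f T x) (fun x => a * g x) := by
  have e : (fun T => ∫ x, a * f T x ∂ν) = fun T => a * ∫ x, f T x ∂ν := by
    funext T
    exact integral_const_mul _ _
  refine ⟨fun T => (h.int T).const_mul a, h.intg.const_mul a, ?_, ?_⟩
  · rw [e]
    exact h.ii.const_mul a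
  · rw [e, intervalIntegral.integral_const_mul, h.eq, integral_const_mul]

lemma Fub.congr (h : Fub ν f g) (hf : ∀ T x, f T x = f' T x) (hg : ∀ x, g x = g' x) :
    Fub ν f' g' := by
  have h1 : f = f' := funext fun T => funext fun x => hf T x
  have h2 : g = g' := funext hg
  rwa [← h1, ← h2]

/-- the base case -/
lemma Fub.base {F : ℝ → ℝ} (hF : IntervalIntegrable F volume 0 1) {φ : Q → ℝ}
    (hφ : Integrable φ ν) :
    Fub ν (fun T x => F T * φ x) (fun x => (∫ T in (0 : ℝ)..1, F T) * φ x) := by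
  have e : (fun T => ∫ x, F T * φ x ∂ν) = fun T => F T * ∫ x, φ x ∂ν := by
    funext T
    exact integral_const_mul _ _
  refine ⟨fun T => hφ.const_mul _, hφ.const_mul _, ?_, ?_⟩
  · rw [e]
    exact hF.mul_const _
  · rw [e, intervalIntegral.integral_mul_const, integral_const_mul]

lemma Fub.zero : Fub ν (fun _ _ => 0) (fun _ => 0) := by
  refine ⟨fun T => integrable_zero _ _ _, integrable_zero _ _ _, ?_, ?_⟩
  · simp
  · simp

end

/-- evaluation of a list of coefficients -/
noncomputable def ev : List ℝ → ℝ → ℝ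
  | [], _ => 0
  | a :: L, x => a + x * ev L x

/-- the moments `∑ i, L i * s ^ i * ∫ T ^ (i + j) * F T` -/
noncomputable def EE (F : ℝ → ℝ) : List ℝ → ℕ → ℝ → ℝ
  | [], _, _ => 0
  | a :: L, j, s => a * (∫ T in (0 : ℝ)..1, T ^ j * F T) + s * EE F L (j + 1) s

lemma intervalIntegrable_pow_mul {F : ℝ → ℝ} (hF : IntervalIntegrable F volume 0 1) (n : ℕ) :
    IntervalIntegrable (fun T => T ^ n * F T) volume 0 1 :=
  hF.continuousOn_mul (by fun_prop)

section

variable {Q : Type*} [MeasurableSpace Q] {ν : Measure Q} [IsFiniteMeasure ν] {κ : Q → R4}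

/-- integration of `F T * T ^ j * L (T s) * φ` -/
theorem Fub.list (hκ : Measurable κ) (hm : ∀ x, κ x ∈ KK) {F : ℝ → ℝ}
    (hF : IntervalIntegrable F volume 0 1) (L : List ℝ) :
    ∀ (j : ℕ) (φ : R4 → ℝ), Continuous φ →
      Fub ν (fun T x => T ^ j * F T * ev L (T * (κ x).1) * φ (κ x))
        (fun x => EE F L j (κ x).1 * φ (κ x)) := by
  induction L with
  | nil =>
    intro j φ _
    refine Fub.congr Fub.zero (fun T x => ?_) (fun x => ?_)
    · simp [ev]
    · simp [EE]
  | cons a L ih =>
    intro j φ hφ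
    have hint : Integrable (fun x => φ (κ x)) ν :=
      integrable_param ν hκ isCompact_KK hm hφ.measurable hφ.continuousOn
    have h1 := (Fub.base (intervalIntegrable_pow_mul hF j) hint).cmul a
    have h2 := ih (j + 1) (fun k => k.1 * φ k) (continuous_fst.mul hφ)
    refine (h1.add h2).congr (fun T x => ?_) (fun x => ?_)
    · simp only [ev]
      ring
    · simp only [EE]
      ring

end

end Vale.Agent.P224.R2.H433
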