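import Vale.Agent.P224.R2.H458.Kh

/-!
Constants in dimensions 36 and 38.
-/

namespace Vale.Agent.P224.R2.H433

open Vale.Agent.P224 Vale.Agent.P224.UE Vale.Agent.P224.PO

lemma KHn_36 : KH 36 = 163352435400 := by
  have := KH_rec (m := 34) (by norm_num)
  rw [H458.KHn_34] at this
  norm_num at this ⊢
  exact this

lemma KHn_38 : KH 38 = 671560012200 := by
  have := KH_rec (m := 36) (by norm_num)
  rw [KHn_36] at this
  norm_num at this ⊢
  exact this

/-- the least Clifford ratio in dimension 36 -/
theorem lc36 : leastClifford 36 ≤ 1424060 / 1000000 * sphereVol 36 := by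
  refine even_bound (k := 18) (by norm_num) ?_
  rw [show (18 : ℕ) = 16 + 2 by norm_num, evenRatio_rec, H458.eR_16]
  norm_num

/-- the least Clifford ratio in dimension 38 -/
theorem lc38 : leastClifford 38 ≤ 1423541 / 1000000 * sphereVol 38 := by
  refine even_bound (k := 19) (by norm_num) ?_
  rw [show (19 : ℕ) = 17 + 2 by norm_num, evenRatio_rec, H458.eR_17]
  have := Real.pi_lt_d20
  norm_num
  linarith

end Vale.Agent.P224.R2.H433
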