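import Vale.Agent.P224.R2.H433.Apx

/-!
The lists of the minorants of `(1 - x)⁻⁵` and `(1 - x)⁻⁷`.
-/

namespace Vale.Agent.P224.R2.H433

/-- the minorant of `(1 - x)⁻⁵` -/
def Q5q : List ℚ := [1, 5, 1897941 / 131072, 2343795 / 65536, 711183 / 8192, 8785485 / 65536, 9510075 / 131072]

/-- the minorant of `(1 - x)⁻⁷` -/
def Q7q : List ℚ := [61150362889 / 62500000000, 398544171019 / 62500000000, 1044446745301 / 50000000000, 51331550313 / 1250000000, 1208623689657 / 25000000000, 486603832239 / 15625000000, 2095029112869 / 250000000000]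

/-- `(1 - x) * Q5q` -/
def A0q : List ℚ := [1, 4, 1242581 / 131072, 2789649 / 131072, 3345669 / 65536, 3096021 / 65536, -8060895 / 131072, -9510075 / 131072]

/-- `(1 - x) * Q7q` -/
def B1q : List ℚ := [61150362889 / 62500000000, 33739380813 / 6250000000, 3628057042429 / 250000000000, 1008815267219 / 50000000000, 181992683397 / 25000000000, -2150287790373 / 125000000000, -1138126440591 / 50000000000, -2095029112869 / 250000000000]

/-- `(1 - x) ^ 2 * Q7q` -/
def B2q : List ℚ := [61150362889 / 62500000000, 276243445241 / 62500000000, 2278481809909 / 250000000000, 708009646833 / 125000000000, -25793196017 / 2000000000, -1530125603679 / 62500000000, -1390056622209 / 250000000000, 1797801545043 / 125000000000, 2095029112869 / 250000000000]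

/-- `(1 - x) ^ 3 * Q7q` -/
def B3q : List ℚ := [61150362889 / 62500000000, 13443317647 / 3906250000, 234701605789 / 50000000000, -862462516243 / 250000000000, -4640168795791 / 250000000000, -2896352912591 / 250000000000, 4730445792507 / 250000000000, 997131942459 / 50000000000, -1500573977217 / 250000000000, -2095029112869 / 250000000000]

/-- the lists -/
noncomputable def L57 : QL := ⟨rl A0q, rl Q5q, rl B3q, rl B2q, rl B1q, rl Q7q⟩

theorem L57_ok : L57.Ok := by
  refine ⟨fun x => ?_, fun x => ?_, fun x => ?_, fun x => ?_⟩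
  · simp only [L57, A0q, Q5q, ev_rl_cons, ev_rl_nil]
    push_cast
    ring
  · simp only [L57, B1q, Q7q, ev_rl_cons, ev_rl_nil]
    push_cast
    ring
  · simp only [L57, B2q, Q7q, ev_rl_cons, ev_rl_nil]
    push_cast
    ring
  · simp only [L57, B3q, Q7q, ev_rl_cons, ev_rl_nil]
    push_cast
    ring

/-- the identity of the first minorant -/
theorem Q5_id (x : ℝ) : 1 - ev L57.Q5 x * (1 - x) ^ 5
    = (1 + x) * (x + 1 / 3) ^ 2 * x ^ 2 * (x - 1 / 5) ^ 2
      * (225 / 512 * (1 - x) ^ 0 + 2925 / 1024 * (1 - x) ^ 1 + 43875 / 4096 * (1 - x) ^ 2 + 249075 / 8192 * (1 - x) ^ 3 + 9510075 / 131072 * (1 - x) ^ 4) := by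
  simp only [L57, Q5q, ev_rl_cons, ev_rl_nil]
  push_cast
  ring

/-- the identity of the second minorant -/
theorem Q7_id (x : ℝ) : 1 - ev L57.B0 x * (1 - x) ^ 7
    = (1 + x) * (x + 2 / 3) ^ 2 * (x + 3 / 7) ^ 2 * (x + 1 / 9) ^ 2
      * (35721 / 500000 * (1 - x) ^ 0 + 1750329 / 5000000 * (1 - x) ^ 1 + 49259259 / 50000000 * (1 - x) ^ 2 + 209003571 / 100000000 * (1 - x) ^ 3 + 9284280831 / 2500000000 * (1 - x) ^ 4 + 145907032509 / 25000000000 * (1 - x) ^ 5 + 2095029112869 / 250000000000 * (1 - x) ^ 6) := by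
  simp only [L57, Q7q, ev_rl_cons, ev_rl_nil]
  push_cast
  ring

theorem Q5_le {x : ℝ} (h1 : -1 ≤ x) (h2 : x ≤ 1) : ev L57.Q5 x * (1 - x) ^ 5 ≤ 1 := by
  have h := Q5_id x
  have h3 : 0 ≤ 1 + x := by linarith
  have h4 : 0 ≤ 1 - x := by linarith
  have h5 : 0 ≤ (1 + x) * (x + 1 / 3) ^ 2 * x ^ 2 * (x - 1 / 5) ^ 2
      * (225 / 512 * (1 - x) ^ 0 + 2925 / 1024 * (1 - x) ^ 1 + 43875 / 4096 * (1 - x) ^ 2 + 249075 / 8192 * (1 - x) ^ 3 + 9510075 / 131072 * (1 - x) ^ 4) := by positivity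
  linarith

theorem Q7_le {x : ℝ} (h1 : -1 ≤ x) (h2 : x ≤ 1) : ev L57.B0 x * (1 - x) ^ 7 ≤ 1 := by
  have h := Q7_id x
  have h3 : 0 ≤ 1 + x := by linarith
  have h4 : 0 ≤ 1 - x := by linarith
  have h5 : 0 ≤ (1 + x) * (x + 2 / 3) ^ 2 * (x + 3 / 7) ^ 2 * (x + 1 / 9) ^ 2
      * (35721 / 500000 * (1 - x) ^ 0 + 1750329 / 5000000 * (1 - x) ^ 1 + 49259259 / 50000000 * (1 - x) ^ 2 + 209003571 / 100000000 * (1 - x) ^ 3 + 9284280831 / 2500000000 * (1 - x) ^ 4 + 145907032509 / 25000000000 * (1 - x) ^ 5 + 2095029112869 / 250000000000 * (1 - x) ^ 6) := by positivity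
  linarith

end Vale.Agent.P224.R2.H433
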