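import Vale.Agent.P224.R2.H925.Inst

/-!
The rows of the two point method with polynomial weights `(1 - s) ^ a * t ^ b`.
-/

namespace Vale.Agent.P224.R2.H433

open MeasureTheory Set Filter Function Real Module Vale.Agent.P224 Vale.Agent.P224.FV
  Vale.Agent.P224.SM2 Vale.Agent.P224.R2.H925
open scoped RealInnerProductSpace Topology ContDiff Manifold

set_option linter.unusedSectionVars false

/-- the value of the weight and its two derivatives -/
noncomputable def w0 (a b : ℕ) (s t : ℝ) : ℝ := (1 - s) ^ a * t ^ b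
noncomputable def ws (a b : ℕ) (s t : ℝ) : ℝ := -(a * (1 - s) ^ (a - 1)) * t ^ b
noncomputable def wt (a b : ℕ) (s t : ℝ) : ℝ := (1 - s) ^ a * (b * t ^ (b - 1))

/-- the rows with the weight `(1 - s) ^ a * t ^ b` -/
noncomputable def uS1 (m : ℝ) (a b : ℕ) (k : R4) : ℝ :=
  S1 m k.1 k.2.1 k.2.2.1 k.2.2.2 (w0 a b k.1 k.2.1) (ws a b k.1 k.2.1) (wt a b k.1 k.2.1)
noncomputable def uS2 (m : ℝ) (a b : ℕ) (k : R4) : ℝ :=
  S2 m k.1 k.2.1 k.2.2.1 k.2.2.2 (w0 a b k.1 k.2.1) (ws a b k.1 k.2.1) (wt a b k.1 k.2.1)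
noncomputable def uCC (m : ℝ) (a b : ℕ) (k : R4) : ℝ :=
  CC m k.1 k.2.1 k.2.2.1 k.2.2.2 (w0 a b k.1 k.2.1) (ws a b k.1 k.2.1) (wt a b k.1 k.2.1)

lemma continuous_uS1 (m : ℝ) (a b : ℕ) : Continuous (uS1 m a b) := by
  unfold uS1 S1 w0 ws wt
  fun_prop

lemma continuous_uS2 (m : ℝ) (a b : ℕ) : Continuous (uS2 m a b) := by
  unfold uS2 S2 w0 ws wt
  fun_prop

lemma continuous_uCC (m : ℝ) (a b : ℕ) : Continuous (uCC m a b) := by
  unfold uCC CC w0 ws wt
  fun_prop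

lemma continuous_sw : Continuous sw := by
  unfold sw
  fun_prop

/-- a law of pair data with the polynomial rows -/
structure PR {Q : Type*} [MeasurableSpace Q] (ν : Measure Q) (m : ℝ) (κ : Q → R4) : Prop where
  r1 : ∀ a b, ZI ν (fun x => uS1 m a b (κ x))
  r2 : ∀ a b, ZI ν (fun x => uS2 m a b (κ x))
  r3 : ∀ a b, ZI ν (fun x => uCC m a b (κ x))
  r1' : ∀ a b, ZI ν (fun x => uS1 m a b (sw (κ x)))
  r2' : ∀ a b, ZI ν (fun x => uS2 m a b (sw (κ x)))
  r3' : ∀ a b, ZI ν (fun x => uCC m a b (sw (κ x)))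

section

variable {V W M : Type*} [NormedAddCommGroup V] [InnerProductSpace ℝ V] [FiniteDimensional ℝ V]
  [NormedAddCommGroup W] [InnerProductSpace ℝ W] [FiniteDimensional ℝ W]
  [TopologicalSpace M] [ChartedSpace V M]
  [MeasurableSpace V] [BorelSpace V] [MeasurableSpace M] [BorelSpace M]
  [IsManifold 𝓘(ℝ, V) ∞ M] [CompactSpace M] [T2Space M]

/-- the data of a polynomial weight -/
lemma mono_data {F : M → W} (hF : SphImm V F) (N : M → W) (z : M) (a b : ℕ) :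
    ContMDiff 𝓘(ℝ, V) 𝓘(ℝ, ℝ) ∞ (fun x => w0 a b ⟪F x, F z⟫ ⟪F x, N z⟫) ∧
    ∀ v x, dl V F v (fun x => w0 a b ⟪F x, F z⟫ ⟪F x, N z⟫) x
      = ws a b ⟪F x, F z⟫ ⟪F x, N z⟫ * dl V F v (fun q => ⟪F q, F z⟫) x
      + wt a b ⟪F x, F z⟫ ⟪F x, N z⟫ * dl V F v (fun q => ⟪F q, N z⟫) x := by
  have hs := smooth_inner hF.smooth (F z)
  have ht := smooth_inner hF.smooth (N z)
  have h1 := smooth_comp hs (w := fun u => (1 - u) ^ a)
    (fun x => (contDiffAt_const.sub contDiffAt_id).pow a)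
  have h2 := smooth_comp ht (w := fun u => u ^ b) (fun x => contDiffAt_id.pow b)
  refine ⟨h1.mul h2, ?_⟩
  intro v x
  have hd : HasDerivAt (fun u : ℝ => (1 - u) ^ a) (-(a * (1 - ⟪F x, F z⟫) ^ (a - 1)))
      ⟪F x, F z⟫ := by
    have := ((hasDerivAt_id (⟪F x, F z⟫ : ℝ)).const_sub 1).fun_pow a
    refine this.congr_deriv ?_
    simp only [id]
    ring
  unfold w0 ws wt
  rw [dl_mul v h1 h2, dl_comp v hs x hd,
    dl_comp (w := fun u => u ^ b) v ht x (hasDerivAt_pow b _)]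
  ring

/-- integration of a row over the second point -/
lemma zi_prod {F N : M → W} {ν : Measure M} [IsFiniteMeasure ν]
    (hm : Measurable (SM2.pr F N)) (hk : ∀ q, SM2.pr F N q ∈ KK) {G : R4 → ℝ}
    (hG : Continuous G) (h : ∀ z, ∫ x, G (SM2.pr F N (x, z)) ∂ν = 0) :
    ZI (ν.prod ν) (fun q => G (SM2.pr F N q)) := by
  have hi := integrable_param (ν.prod ν) hm isCompact_KK hk hG.measurable hG.continuousOn
  refine ⟨hi, ?_⟩
  rw [integral_prod_symm _ hi]
  simp only [h, integral_zero]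

lemma pr_swap (F N : M → W) (q : M × M) : sw (SM2.pr F N q) = SM2.pr F N q.swap := by
  simp only [sw, SM2.pr, Prod.fst_swap, Prod.snd_swap]
  rw [real_inner_comm (F q.2) (F q.1), real_inner_comm (F q.2) (N q.1),
    real_inner_comm (N q.2) (F q.1), real_inner_comm (N q.2) (N q.1)]

lemma zi_swap {F N : M → W} {ν : Measure M} [IsFiniteMeasure ν]
    (hm : Measurable (SM2.pr F N)) (hk : ∀ q, SM2.pr F N q ∈ KK) {G : R4 → ℝ}
    (hG : Continuous G) (h : ZI (ν.prod ν) (fun q => G (SM2.pr F N q))) :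
    ZI (ν.prod ν) (fun q => G (sw (SM2.pr F N q))) := by
  have hi := integrable_param (ν.prod ν) (measurable_sw.comp hm) isCompact_KK
    (fun x => sw_mem (hk x)) hG.measurable hG.continuousOn
  refine ⟨hi, ?_⟩
  simp only [pr_swap]
  rw [← h.2]
  exact integral_prod_swap (fun q : M × M => G (SM2.pr F N q))

/-- the pair law of a minimal hypersurface has the polynomial rows -/
theorem PR_of_min [MeasurableSpace W] [BorelSpace W] (hW : finrank ℝ W = finrank ℝ V + 2)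
    {F : M → W} (hF : SphImm V F) (hmin : ∀ x n, IsUnitNormal V F x n → meanCurv V F x n = 0)
    {N : M → W} (hNs : ContMDiff 𝓘(ℝ, V) 𝓘(ℝ, W) ∞ N) (hN : ∀ x, IsUnitNormal V F x (N x)) :
    PR ((volM V F).prod (volM V F)) (finrank ℝ V) (SM2.pr F N) := by
  have hfin : IsFiniteMeasure (volM V F) := isFiniteMeasure_volM hF
  have h2 := two_of_min hW hF hmin hNs hN
  have e1 : ∀ a b, ZI ((volM V F).prod (volM V F))
      (fun x => uS1 (finrank ℝ V) a b (SM2.pr F N x)) := fun a b =>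
    zi_prod h2.measurable_pr h2.pr_mem (continuous_uS1 _ a b) fun z => by
      obtain ⟨q1, q2⟩ := mono_data hF N z a b
      exact (row_S1 hW hF hmin hN z q1 q2).2
  have e2 : ∀ a b, ZI ((volM V F).prod (volM V F))
      (fun x => uS2 (finrank ℝ V) a b (SM2.pr F N x)) := fun a b =>
    zi_prod h2.measurable_pr h2.pr_mem (continuous_uS2 _ a b) fun z => by
      obtain ⟨q1, q2⟩ := mono_data hF N z a b
      exact (row_S2 hW hF hmin hN z q1 q2).2
  have e3 : ∀ a b, ZI ((volM V F).prod (volM V F))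
      (fun x => uCC (finrank ℝ V) a b (SM2.pr F N x)) := fun a b =>
    zi_prod h2.measurable_pr h2.pr_mem (continuous_uCC _ a b) fun z => by
      obtain ⟨q1, q2⟩ := mono_data hF N z a b
      exact (row_CC hW hF hmin hNs hN z q1 q2).2
  exact ⟨e1, e2, e3,
    fun a b => zi_swap h2.measurable_pr h2.pr_mem (continuous_uS1 _ a b) (e1 a b),
    fun a b => zi_swap h2.measurable_pr h2.pr_mem (continuous_uS2 _ a b) (e2 a b),
    fun a b => zi_swap h2.measurable_pr h2.pr_mem (continuous_uCC _ a b) (e3 a b)⟩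

end

/-! ### the rows in scaled variables -/

/-- the rows in the variables `x = t / √2`, `y = p / √2` -/
noncomputable def q1 (a b : ℕ) (s x y c : ℝ) : ℝ :=
  ws a b s x * (1 - s ^ 2 - 2 * y ^ 2) - wt a b s x * (s * x + y * c) - 3 * s * w0 a b s x
noncomputable def q2 (a b : ℕ) (s x y c : ℝ) : ℝ :=
  -ws a b s x * (s * x + y * c) + wt a b s x * ((1 - 2 * x ^ 2 - c ^ 2) / 2) - 3 * x * w0 a b s x
noncomputable def q3 (a b : ℕ) (s x y c : ℝ) : ℝ :=
  -ws a b s x * (2 * y * s * x + c * (1 - s ^ 2)) + wt a b s x * (y * (1 - 2 * x ^ 2) + c * s * x)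
    - 3 * (2 * y * x - c * s) * w0 a b s x

section

variable {d : ℝ} (hd : d ^ 2 = 1 / 2)

include hd

lemma w0_sc (a b : ℕ) (s t : ℝ) : w0 a b s (d * t) = d ^ b * w0 a b s t := by
  unfold w0
  rw [mul_pow]
  ring

lemma ws_sc (a b : ℕ) (s t : ℝ) : ws a b s (d * t) = d ^ b * ws a b s t := by
  unfold ws
  rw [mul_pow]
  ring

lemma wt_sc (a b : ℕ) (s t : ℝ) : d * wt a b s (d * t) = d ^ b * wt a b s t := by
  unfold wt
  rcases b with _ | b
  · simp
  · simp only [Nat.add_sub_cancel]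
    rw [mul_pow, pow_succ]
    ring

lemma wt_sc' (a b : ℕ) (s t : ℝ) : wt a b s (d * t) = 2 * d * (d ^ b * wt a b s t) := by
  rw [← wt_sc hd]
  have : 2 * d * (d * wt a b s (d * t)) = 2 * d ^ 2 * wt a b s (d * t) := by ring
  rw [this, hd]
  ring

lemma q1_sc (a b : ℕ) (s t p c : ℝ) :
    q1 a b s (d * t) (d * p) c = d ^ b * S1 3 s t p c (w0 a b s t) (ws a b s t) (wt a b s t) := by
  unfold q1 S1
  rw [w0_sc hd, ws_sc hd, wt_sc' hd]
  have h : d * d = 1 / 2 := by rw [← sq, hd]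
  linear_combination (-(2 * d ^ b * ws a b s t * p ^ 2) - 2 * d ^ b * wt a b s t * (s * t + p * c)) * h

lemma q2_sc (a b : ℕ) (s t p c : ℝ) :
    q2 a b s (d * t) (d * p) c
      = d * d ^ b * S2 3 s t p c (w0 a b s t) (ws a b s t) (wt a b s t) := by
  unfold q2 S2
  rw [w0_sc hd, ws_sc hd, wt_sc' hd]
  have h : d * d = 1 / 2 := by rw [← sq, hd]
  linear_combination (-(2 * d * d ^ b * wt a b s t * t ^ 2)) * h

lemma q3_sc (a b : ℕ) (s t p c : ℝ) :
    q3 a b s (d * t) (d * p) c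
      = d ^ b * CC 3 s t p c (w0 a b s t) (ws a b s t) (wt a b s t) := by
  unfold q3 CC
  rw [w0_sc hd, ws_sc hd, wt_sc' hd]
  have h : d * d = 1 / 2 := by rw [← sq, hd]
  linear_combination (-(2 * d ^ b * ws a b s t * p * s * t) - 6 * d ^ b * w0 a b s t * p * t
    + d ^ b * wt a b s t * (2 * p - 4 * d ^ 2 * p * t ^ 2 - 2 * p * t ^ 2 + 2 * c * s * t)) * h

end

/-- the symmetrised row -/
noncomputable def sy (q : ℝ → ℝ → ℝ → ℝ → ℝ) (s x y c : ℝ) : ℝ := (q s x y c + q s y x c) / 2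

/-- a combination of rows: lists of (coefficient, a, b) -/
noncomputable def rowL (q : ℕ → ℕ → ℝ → ℝ → ℝ → ℝ → ℝ) (L : List (ℝ × ℕ × ℕ)) (s x y c : ℝ) : ℝ :=
  (L.map fun l => l.1 * sy (q l.2.1 l.2.2) s x y c).sum

/-- all the rows -/
noncomputable def rows (f g h : List (ℝ × ℕ × ℕ)) (s x y c : ℝ) : ℝ :=
  rowL q1 f s x y c + rowL q2 g s x y c + rowL q3 h s x y c

section

variable {Q : Type*} [MeasurableSpace Q] {ν : Measure Q} {κ : Q → R4} {d : ℝ}

lemma zi_rowL {q : ℕ → ℕ → ℝ → ℝ → ℝ → ℝ → ℝ} (L : List (ℝ × ℕ × ℕ))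
    (h : ∀ a b, ZI ν fun x => q a b (κ x).1 (d * (κ x).2.1) (d * (κ x).2.2.1) (κ x).2.2.2)
    (h' : ∀ a b, ZI ν fun x => q a b (κ x).1 (d * (κ x).2.2.1) (d * (κ x).2.1) (κ x).2.2.2) :
    ZI ν fun x => rowL q L (κ x).1 (d * (κ x).2.1) (d * (κ x).2.2.1) (κ x).2.2.2 := by
  induction L with
  | nil => 
    unfold rowL
    simp only [List.map_nil, List.sum_nil]
    exact ⟨integrable_zero _ _ _, by simp⟩
  | cons l L ih =>
    have h1 := (((h l.2.1 l.2.2).add (h' l.2.1 l.2.2)).cmul (l.1 / 2)).add ih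
    refine h1.congr fun x => ?_
    unfold rowL
    simp only [List.map_cons, List.sum_cons]
    unfold sy
    ring

/-- the combination of the rows has integral zero -/
theorem zi_rows (hd : d ^ 2 = 1 / 2) (h : PR ν 3 κ) (f g l : List (ℝ × ℕ × ℕ)) :
    ZI ν fun x => rows f g l (κ x).1 (d * (κ x).2.1) (d * (κ x).2.2.1) (κ x).2.2.2 := by
  unfold rows
  refine ((zi_rowL f ?_ ?_).add (zi_rowL g ?_ ?_)).add (zi_rowL l ?_ ?_)
  · exact fun a b => ((h.r1 a b).cmul (d ^ b)).congr fun x => (q1_sc hd ..).symm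
  · exact fun a b => ((h.r1' a b).cmul (d ^ b)).congr fun x => (q1_sc hd ..).symm
  · exact fun a b => ((h.r2 a b).cmul (d * d ^ b)).congr fun x => (q2_sc hd ..).symm
  · exact fun a b => ((h.r2' a b).cmul (d * d ^ b)).congr fun x => (q2_sc hd ..).symm
  · exact fun a b => ((h.r3 a b).cmul (d ^ b)).congr fun x => (q3_sc hd ..).symm
  · exact fun a b => ((h.r3' a b).cmul (d ^ b)).congr fun x => (q3_sc hd ..).symm

end

end Vale.Agent.P224.R2.H433
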