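import Vale.Agent.P224.R2.H433.S2End
import Vale.Agent.P224.R2.H728.S2Tail
import Vale.Agent.P224.R2.H494.SD3

/-!
The large dimensions: the small deviation, and the end theorem from the near range, the relative
tails and the law in the small box.
-/

namespace Vale.Agent.P224.R2.H433

open MeasureTheory Set Filter Function Real Module Vale.Agent.P224 Vale.Agent.P224.FV
open Vale.Agent.P224.SM2 Vale.Agent.P224.R2.H820 Vale.Agent.P224.R2.H728 Vale.Agent.P224.R2.H582
open Vale.Agent.P224.R2.H176 (NearData)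
open Vale.Agent.P224.R2.H460 (ParS tlsOK)
open Vale.Agent.P224.R2.H925 (RelU)
open Vale.Agent.P224.R2.H535 (BoxLaw)
open scoped Topology RealInnerProductSpace ContDiff Manifold ENNReal

set_option linter.unusedSectionVars false

universe u v w

section

variable {V : Type u} {W : Type v} {M : Type w}
  [NormedAddCommGroup V] [InnerProductSpace ℝ V] [FiniteDimensional ℝ V]
  [MeasurableSpace V] [BorelSpace V]
  [NormedAddCommGroup W] [InnerProductSpace ℝ W] [FiniteDimensional ℝ W]
  [MeasurableSpace W] [BorelSpace W]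
  [TopologicalSpace M] [T2Space M] [CompactSpace M] [ConnectedSpace M]
  [ChartedSpace V M] [IsManifold 𝓘(ℝ, V) ∞ M] [MeasurableSpace M] [BorelSpace M]

/-- **The small deviation** from the relative tails. -/
theorem smallD_of (hm : 400 ≤ finrank ℝ V) (hW : finrank ℝ W = finrank ℝ V + 2)
    {F : M → W} (hF : SphImm V F) (hmin : ∀ x n, IsUnitNormal V F x n → meanCurv V F x n = 0)
    {p : ParS} (htls : tlsOK p = true) (hnu : p.nuf ≤ 11 / 2000)
    (hrel : RelU (193 / 10) (133 / 10) V W M p.tls p.nuf (finrank ℝ V) F) :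
    SmallD V F p.nuf := by
  intro N b j hd h1 h2
  have hmR : (400 : ℝ) ≤ (finrank ℝ V : ℝ) := by exact_mod_cast hm
  have hm3 : (64000000 : ℝ) ≤ (finrank ℝ V : ℝ) ^ 3 := by
    have := pow_le_pow_left₀ (by norm_num) hmR 3
    norm_num at this
    exact this
  have hm30 : (0 : ℝ) < (finrank ℝ V : ℝ) ^ 3 := by positivity
  refine H494.small_d hm rfl hW hF hmin hd.smooth hd.unit hd.inj b hd.lsq (fraS hm)
    (h1.trans ?_) (tailS_low hm hW hF hmin htls hnu hrel hd ?_ h2) h2
  · rw [div_le_div_iff₀ (by positivity) hm30]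
    linarith
  · rw [div_le_div_iff₀ (by positivity) (by norm_num)]
    linarith

/-- **one large dimension** from the near range, the relative tails and the law in the box -/
theorem dim_S2' (hm : 400 ≤ finrank ℝ V) (hW : finrank ℝ W = finrank ℝ V + 2)
    {F : M → W} (hF : SphImm V F) (hmin : ∀ x n, IsUnitNormal V F x n → meanCurv V F x n = 0)
    (hng : ¬ ∃ a : W, a ≠ 0 ∧ ∀ x, ⟪F x, a⟫ = 0)
    {p : ParS} (htls : tlsOK p = true) (hnu : p.nuf ≤ 11 / 2000)
    (hrel : RelU (193 / 10) (133 / 10) V W M p.tls p.nuf (finrank ℝ V) F)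
    (hfar : FarR V F p.nuf) (hnear : NearR V F p.nuf)
    (hbox : Odd (finrank ℝ V) →
      BoxLaw V F p.nuf (1000 / (finrank ℝ V : ℝ) ^ 3) (6 / (finrank ℝ V : ℝ)) (finrank ℝ V)) :
    ENNReal.ofReal (leastClifford (finrank ℝ V)) ≤ volM V F univ :=
  dim_S2 hm hW hF hmin hng hfar hnear (fun _ => smallD_of hm hW hF hmin htls hnu hrel) hbox

end

end Vale.Agent.P224.R2.H433
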