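import Vale.Agent.P224.R2.H460.Cl5
import Vale.Agent.P224.R2.H535.OddG
import Vale.Agent.P224.R2.H577.Sharp

/-!
**The large dimensions, end theorem**: the far range, the near law of the large dimensions and, in
odd dimension, the law in the small box give the sharp bound.
-/

namespace Vale.Agent.P224.R2.H433

open MeasureTheory Set Filter Function Real Module Vale.Agent.P224 Vale.Agent.P224.FV
open Vale.Agent.P224.SM2 Vale.Agent.P224.R2.H820 Vale.Agent.P224.R2.H728 Vale.Agent.P224.R2.H582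
open Vale.Agent.P224.R2.H176 (NearData NearOut even_glue far_of_mean)
open Vale.Agent.P224.R2.H460 (NearS)
open Vale.Agent.P224.R2.H535 (BoxLaw odd_of_box)
open Vale.Agent.P224.R2.H577 (Sharp)
open scoped Topology RealInnerProductSpace ContDiff Manifold ENNReal

set_option linter.unusedSectionVars false

universe u v w

/-- the far range of one immersion, with the level `ν` -/
def FarR (V : Type*) [NormedAddCommGroup V] [InnerProductSpace ℝ V]
    [FiniteDimensional ℝ V] [MeasurableSpace V] [BorelSpace V]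
    {W M : Type*} [NormedAddCommGroup W] [InnerProductSpace ℝ W] [FiniteDimensional ℝ W]
    [TopologicalSpace M] [ChartedSpace V M]
    [MeasurableSpace M] (F : M → W) (ν : ℝ) : Prop :=
  ∀ N : M → W, ContMDiff 𝓘(ℝ, V) 𝓘(ℝ, W) ∞ N → (∀ x, IsUnitNormal V F x (N x)) →
    ‖∫ x, N x ∂(volM V F)‖ ≤ sphereVol (finrank ℝ V) →
    (volM V F).real univ ≤ leastClifford (finrank ℝ V) →
    ‖∫ x, N x ∂(volM V F)‖ < ν * (volM V F).real univ

/-- the near range of one immersion, large dimensions -/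
def NearR (V : Type*) [NormedAddCommGroup V] [InnerProductSpace ℝ V]
    [FiniteDimensional ℝ V] [MeasurableSpace V] [BorelSpace V]
    {W M : Type*} [NormedAddCommGroup W] [InnerProductSpace ℝ W] [FiniteDimensional ℝ W]
    [MeasurableSpace W] [BorelSpace W] [TopologicalSpace M] [ChartedSpace V M]
    [MeasurableSpace M] [BorelSpace M] (F : M → W) (ν : ℝ) : Prop :=
  ∀ (N : M → W) (b : OrthonormalBasis (Fin (finrank ℝ W)) ℝ W) (j : Fin (finrank ℝ W) → ℝ),
    NearData V F N b j ν → NearS V F N b j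

/-- the deviation is small if the defect is small and the law fails, odd dimensions -/
def SmallD (V : Type*) [NormedAddCommGroup V] [InnerProductSpace ℝ V]
    [FiniteDimensional ℝ V] [MeasurableSpace V] [BorelSpace V]
    {W M : Type*} [NormedAddCommGroup W] [InnerProductSpace ℝ W] [FiniteDimensional ℝ W]
    [MeasurableSpace W] [BorelSpace W] [TopologicalSpace M] [ChartedSpace V M]
    [MeasurableSpace M] [BorelSpace M] (F : M → W) (ν : ℝ) : Prop :=
  ∀ (N : M → W) (b : OrthonormalBasis (Fin (finrank ℝ W)) ℝ W) (j : Fin (finrank ℝ W) → ℝ),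
    NearData V F N b j ν →
    hh (nrm (volM V F)) (Matrix.diagonal j) (co b F) (co b N) ≤ 500 / (3 * (finrank ℝ V : ℝ) ^ 3) →
    1 < 2 * lamM (finrank ℝ V) * (sphereVol (finrank ℝ V) / (volM V F).real univ)
      + 1 / (3 * (finrank ℝ V : ℝ) ^ 3) →
    √(fro (De (nrm (volM V F)) (co b F) (co b N))) ≤ 6 / (finrank ℝ V : ℝ)

section

variable {V : Type u} {W : Type v} {M : Type w}
  [NormedAddCommGroup V] [InnerProductSpace ℝ V] [FiniteDimensional ℝ V]
  [MeasurableSpace V] [BorelSpace V]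
  [NormedAddCommGroup W] [InnerProductSpace ℝ W] [FiniteDimensional ℝ W]
  [MeasurableSpace W] [BorelSpace W]
  [TopologicalSpace M] [T2Space M] [CompactSpace M] [ConnectedSpace M]
  [ChartedSpace V M] [IsManifold 𝓘(ℝ, V) ∞ M] [MeasurableSpace M] [BorelSpace M]

/-- the near law without a margin -/
lemma NearR.law {F : M → W} {ν : ℝ} (h : NearR V F ν) {N : M → W}
    {b : OrthonormalBasis (Fin (finrank ℝ W)) ℝ W} {j : Fin (finrank ℝ W) → ℝ}
    (hd : NearData V F N b j ν) :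
    2 * lamM (finrank ℝ V) * (sphereVol (finrank ℝ V) / (volM V F).real univ) + 0 ≤ 1 :=
  h N b j hd 0 (mul_nonneg (by norm_num) (hd.t0.hh_nonneg _)) (by norm_num)

/-- **one even dimension** -/
theorem even_S2 {k : ℕ} (hk : 2 ≤ k) (hV : finrank ℝ V = 2 * k)
    (hW : finrank ℝ W = finrank ℝ V + 2)
    {F : M → W} (hF : SphImm V F) (hmin : ∀ x n, IsUnitNormal V F x n → meanCurv V F x n = 0)
    (hng : ¬ ∃ a : W, a ≠ 0 ∧ ∀ x, ⟪F x, a⟫ = 0) {ν : ℝ}
    (hfar : FarR V F ν) (hnear : NearR V F ν) :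
    ENNReal.ofReal (leastClifford (finrank ℝ V)) ≤ volM V F univ :=
  even_glue hk hV hW hF hmin hng hfar (h1 := -1) (d1 := 0) (by norm_num)
    fun _ _ _ hd => Or.inl (hnear.law hd)

/-- **one odd dimension** -/
theorem odd_S2 {h : ℕ} (hh : 200 ≤ h) (hV : finrank ℝ V = 2 * h + 1)
    (hW : finrank ℝ W = finrank ℝ V + 2)
    {F : M → W} (hF : SphImm V F) (hmin : ∀ x n, IsUnitNormal V F x n → meanCurv V F x n = 0)
    (hng : ¬ ∃ a : W, a ≠ 0 ∧ ∀ x, ⟪F x, a⟫ = 0) {ν : ℝ}
    (hfar : FarR V F ν) (hnear : NearR V F ν) (hdev : SmallD V F ν)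
    (hbox : BoxLaw V F ν (1000 / (finrank ℝ V : ℝ) ^ 3) (6 / (finrank ℝ V : ℝ)) (finrank ℝ V)) :
    ENNReal.ofReal (leastClifford (finrank ℝ V)) ≤ volM V F univ := by
  have hm : 401 ≤ finrank ℝ V := by omega
  have hmR : (400 : ℝ) ≤ (finrank ℝ V : ℝ) := by
    have : (401 : ℝ) ≤ (finrank ℝ V : ℝ) := by exact_mod_cast hm
    linarith
  have hm0 : (0 : ℝ) < (finrank ℝ V : ℝ) := by linarith
  have hm3 : (64000000 : ℝ) ≤ (finrank ℝ V : ℝ) ^ 3 := by
    have := pow_le_pow_left₀ (by norm_num) hmR 3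
    norm_num at this
    exact this
  have hm30 : (0 : ℝ) < (finrank ℝ V : ℝ) ^ 3 := by positivity
  refine odd_of_box (by omega) hV hW hF hmin hng hfar
    (gp := 1 / (3 * (finrank ℝ V : ℝ) ^ 3)) (h1 := 500 / (3 * (finrank ℝ V : ℝ) ^ 3))
    (d1 := 6 / (finrank ℝ V : ℝ)) le_rfl (fun N b j hd => ?_) ?_ le_rfl hbox
  · by_cases h1 : 2 * lamM (finrank ℝ V) * (sphereVol (finrank ℝ V) / (volM V F).real univ)
        + 1 / (3 * (finrank ℝ V : ℝ) ^ 3) ≤ 1
    · exact Or.inl h1
    · push Not at h1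
      have h2 : H728.hh (nrm (volM V F)) (Matrix.diagonal j) (co b F) (co b N)
          ≤ 500 / (3 * (finrank ℝ V : ℝ) ^ 3) := by
        by_contra hc
        push Not at hc
        refine absurd (hnear N b j hd (1 / (3 * (finrank ℝ V : ℝ) ^ 3)) ?_ ?_) (not_le.2 h1)
        · have e : 500 / (3 * (finrank ℝ V : ℝ) ^ 3) = 500 * (1 / (3 * (finrank ℝ V : ℝ) ^ 3)) := by
            ring
          rw [e] at hc
          linarith
        · rw [div_le_div_iff₀ (by positivity) (by norm_num)]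
          linarith
      exact Or.inr ⟨h2, hdev N b j hd h2 h1⟩
  · rw [div_le_div_iff₀ (by positivity) hm30]
    linarith

/-- **one large dimension**, both parities -/
theorem dim_S2 (hm : 400 ≤ finrank ℝ V) (hW : finrank ℝ W = finrank ℝ V + 2)
    {F : M → W} (hF : SphImm V F) (hmin : ∀ x n, IsUnitNormal V F x n → meanCurv V F x n = 0)
    (hng : ¬ ∃ a : W, a ≠ 0 ∧ ∀ x, ⟪F x, a⟫ = 0) {ν : ℝ}
    (hfar : FarR V F ν) (hnear : NearR V F ν)
    (hdev : Odd (finrank ℝ V) → SmallD V F ν)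
    (hbox : Odd (finrank ℝ V) →
      BoxLaw V F ν (1000 / (finrank ℝ V : ℝ) ^ 3) (6 / (finrank ℝ V : ℝ)) (finrank ℝ V)) :
    ENNReal.ofReal (leastClifford (finrank ℝ V)) ≤ volM V F univ := by
  rcases Nat.even_or_odd' (finrank ℝ V) with ⟨k, hk | hk⟩
  · exact even_S2 (by omega) hk hW hF hmin hng hfar hnear
  · have ho : Odd (finrank ℝ V) := ⟨k, hk⟩
    exact odd_S2 (by omega) hk hW hF hmin hng hfar hnear (hdev ho) (hbox ho)

end

/-- the inputs of the large dimensions, for all immersions of dimension `m` -/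
def Inputs (ν : ℝ) (m : ℕ) : Prop :=
  ∀ (V : Type u) (W : Type v) (M : Type w)
    [NormedAddCommGroup V] [InnerProductSpace ℝ V] [FiniteDimensional ℝ V]
    [MeasurableSpace V] [BorelSpace V]
    [NormedAddCommGroup W] [InnerProductSpace ℝ W] [FiniteDimensional ℝ W]
    [MeasurableSpace W] [BorelSpace W]
    [TopologicalSpace M] [T2Space M] [CompactSpace M] [ConnectedSpace M]
    [ChartedSpace V M] [IsManifold 𝓘(ℝ, V) ∞ M] [MeasurableSpace M] [BorelSpace M],
    finrank ℝ V = m → finrank ℝ W = finrank ℝ V + 2 →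
    ∀ F : M → W, SphImm V F → (∀ x n, IsUnitNormal V F x n → meanCurv V F x n = 0) →
      (¬ ∃ a : W, a ≠ 0 ∧ ∀ x, ⟪F x, a⟫ = 0) →
      FarR V F ν ∧ NearR V F ν ∧ (Odd m → SmallD V F ν) ∧
        (Odd m → BoxLaw V F ν (1000 / (m : ℝ) ^ 3) (6 / (m : ℝ)) m)

/-- **The large dimensions.** -/
theorem sharp_large {ν : ℝ} {m : ℕ} (hm : 400 ≤ m) (h : Inputs.{u, v, w} ν m) :
    Sharp.{u, v, w} m := by
  intro V W M _ _ _ _ _ _ _ _ _ _ _ _ _ _ _ _ _ _ hV hW F hF hmin hng
  obtain ⟨h1, h2, h3, h4⟩ := h V W M hV hW F hF hmin hng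
  subst hV
  exact dim_S2 hm hW hF hmin hng h1 h2 h3 h4

end Vale.Agent.P224.R2.H433
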